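import Vale.Agent.P254.H452.XAlg

/-!
P254, maximum principle block (X), part 3 (helper452): the contact computation.
-/

namespace Vale.Agent.P254.X452

open Matrix Polynomial Filter Topology Asymptotics Set
open Vale.Agent.P254.L Vale.Agent.P254.S526 Vale.Agent.P254.Z546

variable {n : ℕ} {F : Profile}

/-! ### frames of tensors -/

/-- `∑_{kl} L_ak L_al K_ijkl` -/
def KKm (L : Mat n) (K : Fin n → Fin n → Fin n → Fin n → ℝ) (a : Fin n) : Mat n :=
  Matrix.of fun i j => ∑ k, L a k * ∑ l, L a l * K i j k l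

theorem conj_TTm (L : Mat n) (T : Ten n) (a i j : Fin n) :
    (L * (Matrix.of fun i j => ∑ k, L a k * T i j k) * Lᵀ) i j = frT L T i j a := by
  simp only [Matrix.mul_apply, Matrix.transpose_apply, Matrix.of_apply, frT]
  simp only [Finset.sum_mul, Finset.mul_sum]
  rw [Finset.sum_comm]
  refine Finset.sum_congr rfl fun p _ => Finset.sum_congr rfl fun q _ =>
    Finset.sum_congr rfl fun k _ => ?_
  ring

theorem frT_jet2 {l : Filter ℝ} (L : Mat n) {Tt : ℝ → Ten n} {T0 T1 T2 : Ten n}
    (hT : ∀ i j k, J2 l (fun t => Tt t i j k) (T0 i j k) (T1 i j k) (T2 i j k)) (i j k : Fin n) :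
    J2 l (fun t => frT L (Tt t) i j k) (frT L T0 i j k) (frT L T1 i j k) (frT L T2 i j k) := by
  have h := J2.sum Finset.univ (fun a _ => J2.sum Finset.univ (fun b _ =>
    J2.sum Finset.univ (fun c _ => (hT a b c).const_mul (L i a * L j b * L k c))))
  exact h

theorem frT_jet1 {l : Filter ℝ} (L : Mat n) {Tt : ℝ → Ten n} {T0 T1 : Ten n}
    (hT : ∀ i j k, J1 l (fun t => Tt t i j k) (T0 i j k) (T1 i j k)) (i j k : Fin n) :
    J1 l (fun t => frT L (Tt t) i j k) (frT L T0 i j k) (frT L T1 i j k) := by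
  have h := J1.sum Finset.univ (fun a _ => J1.sum Finset.univ (fun b _ =>
    J1.sum Finset.univ (fun c _ => (hT a b c).const_mul (L i a * L j b * L k c))))
  exact h

theorem frT_symm (L : Mat n) {T : Ten n} (hT : TSymm T) : TSymm (frT L T) := by
  constructor
  · intro i j k
    unfold frT
    rw [Finset.sum_comm]
    refine Finset.sum_congr rfl fun a _ => Finset.sum_congr rfl fun b _ =>
      Finset.sum_congr rfl fun c _ => ?_
    rw [hT.1 b a c]; ring
  · intro i j k
    unfold frT
    refine Finset.sum_congr rfl fun a _ => ?_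
    rw [Finset.sum_comm]
    refine Finset.sum_congr rfl fun b _ => Finset.sum_congr rfl fun c _ => ?_
    rw [hT.2 a c b]; ring

/-- the fourth cumulant in the frame; the first index is the direction of differentiation -/
def fr4 (L : Mat n) (K : Fin n → Fin n → Fin n → Fin n → ℝ) : Fin n → Ten n := fun a =>
  frT L fun i j k => ∑ r, L a r * K i j k r

/-- the second derivative of `T` in the frame direction `a` -/
def fr5 (L : Mat n) (R : Fin n → Fin n → Fin n → Fin n → Fin n → ℝ) (a : Fin n) : Ten n :=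
  frT L fun i j k => ∑ l, L a l * ∑ r, L a r * R i j k l r

theorem fr4_eq (L : Mat n) (K : Fin n → Fin n → Fin n → Fin n → ℝ) (a i j k : Fin n) :
    fr4 L K a i j k = ∑ p, ∑ q, ∑ s, ∑ r, L i p * L j q * L k s * L a r * K p q s r := by
  unfold fr4 frT
  refine Finset.sum_congr rfl fun p _ => Finset.sum_congr rfl fun q _ =>
      Finset.sum_congr rfl fun s _ => ?_
  rw [Finset.mul_sum]
  refine Finset.sum_congr rfl fun r _ => ?_
  ring

theorem fr4_symm (L : Mat n) {K : Fin n → Fin n → Fin n → Fin n → ℝ}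
    (h1 : ∀ i j k l, K i j k l = K j i k l) (h2 : ∀ i j k l, K i j k l = K i k j l)
    (h3 : ∀ i j k l, K i j k l = K i j l k) : KSymm (fr4 L K) := by
  -- swaps of the slots of `fr4 L K a i j k`, which are `(k-slot 4 = a)`
  have s12 : ∀ a i j k, fr4 L K a i j k = fr4 L K a j i k := by
    intro a i j k
    rw [fr4_eq, fr4_eq, Finset.sum_comm]
    refine Finset.sum_congr rfl fun p _ => Finset.sum_congr rfl fun q _ =>
      Finset.sum_congr rfl fun s _ => Finset.sum_congr rfl fun r _ => ?_
    rw [h1 q p s r]; ring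
  have s23 : ∀ a i j k, fr4 L K a i j k = fr4 L K a i k j := by
    intro a i j k
    rw [fr4_eq, fr4_eq]
    refine Finset.sum_congr rfl fun p _ => ?_
    rw [Finset.sum_comm]
    refine Finset.sum_congr rfl fun q _ =>
      Finset.sum_congr rfl fun s _ => Finset.sum_congr rfl fun r _ => ?_
    rw [h2 p s q r]; ring
  have s34 : ∀ a i j k, fr4 L K a i j k = fr4 L K k i j a := by
    intro a i j k
    rw [fr4_eq, fr4_eq]
    refine Finset.sum_congr rfl fun p _ => Finset.sum_congr rfl fun q _ => ?_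
    rw [Finset.sum_comm]
    refine Finset.sum_congr rfl fun s _ => Finset.sum_congr rfl fun r _ => ?_
    rw [h3 p q r s]; ring
  refine ⟨?_, ?_, ?_⟩
  · -- `a ↔ i`
    intro a i j k
    calc fr4 L K a i j k = fr4 L K a i k j := s23 a i j k
      _ = fr4 L K a k i j := s12 a i k j
      _ = fr4 L K a k j i := s23 a k i j
      _ = fr4 L K i k j a := s34 a k j i
      _ = fr4 L K i k a j := s23 i k j a
      _ = fr4 L K i a k j := s12 i k a j
      _ = fr4 L K i a j k := s23 i a k j
  · intro a i j k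
    exact s12 a i j k
  · intro a i j k
    exact s23 a i j k

/-! ### scaling -/

theorem N3_smul (P₁ P₂ P₃ : Mat n) (T T' : Ten n) (x y : ℝ) :
    N3 P₁ P₂ P₃ (fun i j k => x * T i j k) (fun i j k => y * T' i j k)
      = x * y * N3 P₁ P₂ P₃ T T' := by
  unfold N3
  simp only [Finset.mul_sum]
  refine Finset.sum_congr rfl fun a _ => Finset.sum_congr rfl fun b _ =>
    Finset.sum_congr rfl fun c _ => Finset.sum_congr rfl fun a' _ =>
    Finset.sum_congr rfl fun b' _ => Finset.sum_congr rfl fun c' _ => ?_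
  ring

theorem N3_smul1 (X P₂ P₃ : Mat n) (T T' : Ten n) (x : ℝ) :
    N3 (x • X) P₂ P₃ T T' = x * N3 X P₂ P₃ T T' := by
  unfold N3
  simp only [Finset.mul_sum]
  refine Finset.sum_congr rfl fun a _ => Finset.sum_congr rfl fun b _ =>
    Finset.sum_congr rfl fun c _ => Finset.sum_congr rfl fun a' _ =>
    Finset.sum_congr rfl fun b' _ => Finset.sum_congr rfl fun c' _ => ?_
  simp only [Matrix.smul_apply, smul_eq_mul]
  ring

theorem N3_smul12 (X X' P₃ : Mat n) (T T' : Ten n) (x : ℝ) :
    N3 (x • X) (x • X') P₃ T T' = x ^ 2 * N3 X X' P₃ T T' := by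
  unfold N3
  simp only [Finset.mul_sum]
  refine Finset.sum_congr rfl fun a _ => Finset.sum_congr rfl fun b _ =>
    Finset.sum_congr rfl fun c _ => Finset.sum_congr rfl fun a' _ =>
    Finset.sum_congr rfl fun b' _ => Finset.sum_congr rfl fun c' _ => ?_
  simp only [Matrix.smul_apply, smul_eq_mul]
  ring

theorem Sd_smul (b : Vec n) (T : Ten n) (a : Fin n) (x : ℝ) :
    Sd F b (fun i j k => x * T i j k) a = x • Sd F b T a := by
  ext i j
  simp only [Sd, Matrix.of_apply, Matrix.smul_apply, smul_eq_mul]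
  ring

theorem Gam_smul (b : Vec n) (T : Ten n) (a a' : Fin n) (x : ℝ) :
    Gam F b (fun i j k => x * T i j k) a a' = x ^ 2 • Gam F b T a a' := by
  ext i j
  simp only [Gam, Matrix.of_apply, Matrix.smul_apply, smul_eq_mul, Finset.mul_sum]
  refine Finset.sum_congr rfl fun k _ => ?_
  ring

/-! ### the data at a point -/

variable (D : TiltData n)

theorem A_symm' (B : Mat n) (c : Vec n) : (D.A B c)ᵀ = D.A B c := by
  ext i j; rw [Matrix.transpose_apply]; exact D.A_symm B c j i

/-- the functional -/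
noncomputable def fP (D : TiltData n) (B : Mat n) (c : Vec n) (P : Mat n) : ℝ :=
  NN P (D.T B c) (D.T B c)

noncomputable def gP (F : Profile) (D : TiltData n) (B : Mat n) (c : Vec n) (P : Mat n) : ℝ :=
  ((Sf F.p (D.A B c) B * P) ^ 3).trace

theorem fP_frame (B : Mat n) (c : Vec n) (L P' : Mat n) :
    fP D B c (Lᵀ * P' * L) = NN P' (frT L (D.T B c)) (frT L (D.T B c)) := by
  unfold fP
  rw [Fr.NN_frT]

theorem gP_frame (B : Mat n) (c : Vec n) (L P' : Mat n) :
    gP F D B c (Lᵀ * P' * L) = ((L * Sf F.p (D.A B c) B * Lᵀ * P') ^ 3).trace := by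
  unfold gP
  have e : Sf F.p (D.A B c) B * (Lᵀ * P' * L) = (Sf F.p (D.A B c) B * Lᵀ * P') * L := by
    simp only [Matrix.mul_assoc]
  rw [e, trace_cube_comm]
  simp only [Matrix.mul_assoc]

section contact

variable {D} {B : Mat n} (hB : B.PosDef) {c : Vec n} {L : Mat n} {β : Vec n}
  (h : SFr F (D.A B c) B L β)

/-- the direction `a` of the frame -/
def dir (L : Mat n) (a : Fin n) : Vec n := fun k => L a k

include hB in
theorem A_jet2 (c : Vec n) (L : Mat n) (a i j : Fin n) :
    J2 (𝓝 0) (fun t : ℝ => D.A B (c + t • dir L a) i j) (D.A B c i j)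
      ((Matrix.of fun i j => ∑ k, L a k * D.T B c i j k) i j)
      (((1 / 2 : ℝ) • KKm L (D.K B c) a) i j) := by
  have h1 := J2.of_hasDerivAt (f := fun t : ℝ => D.A B (c + t • dir L a) i j)
    (f' := fun t => ∑ k, dir L a k * D.T B (c + t • dir L a) i j k)
    (f2 := ∑ k, dir L a k * ∑ l, dir L a l * D.K B (c + (0 : ℝ) • dir L a) i j k l)
    (Eventually.of_forall fun t => D.dA B hB.posSemidef c (dir L a) i j t)
    (by
      have h2 := HasDerivAt.fun_sum (u := Finset.univ) (fun k _ =>
        (D.dT B hB.posSemidef c (dir L a) i j k 0).const_mul (dir L a k))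
      exact h2)
  simp only [zero_smul, add_zero] at h1
  refine h1.congr_coef rfl rfl ?_
  simp only [Matrix.smul_apply, KKm, Matrix.of_apply, smul_eq_mul, dir]
  ring

include hB in
theorem T_jet2 (c : Vec n) (L : Mat n) (a i j k : Fin n) :
    J2 (𝓝 0) (fun t : ℝ => frT L (D.T B (c + t • dir L a)) i j k) (frT L (D.T B c) i j k)
      (fr4 L (D.K B c) a i j k) (1 / 2 * fr5 L (D.R B c) a i j k) := by
  have h0 : ∀ i j k, J2 (𝓝 0) (fun t : ℝ => D.T B (c + t • dir L a) i j k) (D.T B c i j k)
      ((fun i j k => ∑ r, L a r * D.K B c i j k r) i j k)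
      ((fun i j k => 1 / 2 * ∑ l, L a l * ∑ r, L a r * D.R B c i j k l r) i j k) := by
    intro i j k
    have h1 := J2.of_hasDerivAt (f := fun t : ℝ => D.T B (c + t • dir L a) i j k)
      (f' := fun t => ∑ l, dir L a l * D.K B (c + t • dir L a) i j k l)
      (f2 := ∑ l, dir L a l * ∑ r, dir L a r * D.R B (c + (0 : ℝ) • dir L a) i j k l r)
      (Eventually.of_forall fun t => D.dT B hB.posSemidef c (dir L a) i j k t)
      (by
        have h2 := HasDerivAt.fun_sum (u := Finset.univ) (fun l _ =>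
          (D.dK B hB.posSemidef c (dir L a) i j k l 0).const_mul (dir L a l))
        exact h2)
    simp only [zero_smul, add_zero] at h1
    refine h1.congr_coef rfl rfl ?_
    simp only [dir]
    ring
  refine (frT_jet2 L h0 i j k).congr_coef rfl rfl ?_
  unfold fr5 frT
  simp only [Finset.mul_sum]
  refine Finset.sum_congr rfl fun p _ => Finset.sum_congr rfl fun q _ =>
    Finset.sum_congr rfl fun s _ => Finset.sum_congr rfl fun r _ =>
    Finset.sum_congr rfl fun r' _ => ?_
  ring

/-- the matrix `L (∑ L L K) Lᵀ` -/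
noncomputable def KL (D : TiltData n) (B : Mat n) (c : Vec n) (L : Mat n) (a : Fin n) : Mat n :=
  L * KKm L (D.K B c) a * Lᵀ

/-- `h[b_i,b_j] (KL)_ij` -/
noncomputable def hK (F : Profile) (D : TiltData n) (B : Mat n) (c : Vec n) (L : Mat n)
    (β : Vec n) (a : Fin n) : Mat n :=
  Matrix.of fun i j => dd1 F.h F.h1 (β i) (β j) * KL D B c L a i j

include hB h in
theorem S_jet2 (a i j : Fin n) :
    J2 (𝓝 0) (fun t : ℝ => (L * Sf F.p (D.A B (c + t • dir L a)) B * Lᵀ) i j) ((1 : Mat n) i j)
      (Sd F β (frT L (D.T B c)) a i j)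
      (((1 / 2 : ℝ) • hK F D B c L β a + Gam F β (frT L (D.T B c)) a a) i j) := by
  have hs : TSymm (frT L (D.T B c)) := frT_symm L (D.T_symm B c)
  have hrot : ∀ i j, frT L (D.T B c) i j a = frT L (D.T B c) a i j := by
    intro i j
    rw [hs.2 i j a, hs.1 i a j]
  refine (Sf_jet2 h (A_symm' D B c) (fun i j => A_jet2 hB c L a i j) (Eventually.of_forall
    fun t => ⟨A_symm' D _ _, exists_Fr (D.posA B hB.posSemidef _) hB.isHermitian⟩)
    i j).congr_coef rfl ?_ ?_
  · rw [conj_TTm, hrot]; rfl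
  · simp only [conj_TTm, hrot, Matrix.mul_smul, Matrix.smul_mul, Matrix.smul_apply, smul_eq_mul,
      Matrix.add_apply, hK, Gam, Matrix.of_apply, KL]
    congr 1
    ring

/-- second order coefficient in the direction `a` with the coupling `X` (in the frame) -/
noncomputable def c2 (F : Profile) (D : TiltData n) (B : Mat n) (c : Vec n) (L : Mat n)
    (β : Vec n) (θ : ℝ) (P X : Mat n) (a : Fin n) : ℝ :=
  (NN P (fr4 L (D.K B c) a) (fr4 L (D.K B c) a)
      + NN P (fr5 L (D.R B c) a) (frT L (D.T B c))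
      + 6 * N3 X P P (fr4 L (D.K B c) a) (frT L (D.T B c))
      + 3 * N3 X X P (frT L (D.T B c)) (frT L (D.T B c)))
    - θ * (3 / 2 * (hK F D B c L β a * (P * P * P)).trace
      + 3 * (Gam F β (frT L (D.T B c)) a a * (P * P * P)).trace
      + 3 * (Sd F β (frT L (D.T B c)) a * P * Sd F β (frT L (D.T B c)) a * (P * P)).trace
      + 3 * (X * (Sd F β (frT L (D.T B c)) a * (P * P) + P * Sd F β (frT L (D.T B c)) a * P
          + P * P * Sd F β (frT L (D.T B c)) a)).trace
      + 3 * (X * X * P).trace)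

include hB h in
theorem jet_c (θ : ℝ) {P X : Mat n} (hP : Pᵀ = P) (hX : Xᵀ = X) (a : Fin n) :
    J2 (𝓝 0) (fun t : ℝ => fP D B (c + t • dir L a) (Lᵀ * (P + t • X) * L)
        - θ * gP F D B (c + t • dir L a) (Lᵀ * (P + t • X) * L))
      (NN P (frT L (D.T B c)) (frT L (D.T B c)) - θ * (P * P * P).trace)
      (2 * NN P (fr4 L (D.K B c) a) (frT L (D.T B c))
        + 3 * N3 X P P (frT L (D.T B c)) (frT L (D.T B c))
        - θ * (3 * (Sd F β (frT L (D.T B c)) a * (P * P * P)).trace + 3 * (X * (P * P)).trace))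
      (c2 F D B c L β θ P X a) := by
  have hs : TSymm (frT L (D.T B c)) := frT_symm L (D.T_symm B c)
  have hKs := fr4_symm L (D.K_symm1 B c) (D.K_symm2 B c) (D.K_symm3 B c)
  have hs1 : TSymm (fr4 L (D.K B c) a) := ⟨fun i j k => hKs.2.1 a i j k, fun i j k => hKs.2.2 a i j k⟩
  have h1 := NN_jet2 le_rfl (T1 := fr4 L (D.K B c) a)
    (T2 := fun i j k => 1 / 2 * fr5 L (D.R B c) a i j k)
    (fun i j k => T_jet2 hB c L a i j k) hs hs1 hP hX
  have h2 := tr_jet2 le_rfl (fun i j => S_jet2 hB h a i j) P X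
  refine (h1.sub (h2.const_mul θ)).congr (Eventually.of_forall fun t => ?_) rfl rfl ?_
  · show _ = fP D B (c + t • dir L a) (Lᵀ * (P + t • X) * L)
        - θ * gP F D B (c + t • dir L a) (Lᵀ * (P + t • X) * L)
    rw [fP_frame, gP_frame]
  · unfold c2
    have e1 : NN P (fun i j k => 1 / 2 * fr5 L (D.R B c) a i j k) (frT L (D.T B c))
        = 1 / 2 * NN P (fr5 L (D.R B c) a) (frT L (D.T B c)) := by
      have := N3_smul P P P (fr5 L (D.R B c) a) (frT L (D.T B c)) (1 / 2) 1
      simp only [one_mul] at this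
      unfold NN
      rw [this]; ring
    rw [e1, Matrix.add_mul, Matrix.smul_mul, Matrix.trace_add, Matrix.trace_smul, smul_eq_mul]
    ring

/-! ### the flow, control `Q = A⁻¹` -/

theorem SFr.inv_A {A B L : Mat n} {β : Vec n} (h : SFr F A B L β) :
    A⁻¹ = Lᵀ * Matrix.diagonal (fun i => F.p (β i)) * L := by
  have hp : ∀ i, F.p (β i) ≠ 0 := fun i => (h.ppos i).ne'
  have h1 : L * (A * (Lᵀ * Matrix.diagonal (fun i => F.p (β i)))) = 1 := by
    calc L * (A * (Lᵀ * Matrix.diagonal (fun i => F.p (β i))))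
        = (L * A * Lᵀ) * Matrix.diagonal (fun i => F.p (β i)) := by
          simp only [Matrix.mul_assoc]
      _ = 1 := by
          rw [h.hA, Matrix.diagonal_mul_diagonal, ← Matrix.diagonal_one]
          congr 1
          funext i
          exact one_div_mul_cancel (hp i)
  have h2 := mul_eq_one_comm.1 h1
  refine Matrix.inv_eq_right_inv ?_
  rw [← h2]
  simp only [Matrix.mul_assoc]

theorem SFr.A_mul_Q {A B L : Mat n} {β : Vec n} (h : SFr F A B L β) (hA : A.PosDef) :
    A * (Lᵀ * Matrix.diagonal (fun i => F.p (β i)) * L) = 1 := by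
  rw [← h.inv_A]
  exact Matrix.mul_nonsing_inv _ (isUnit_iff_ne_zero.2 hA.det_pos.ne')

theorem dd1_sub_h (x y : ℝ) :
    dd1 F.p F.p1 x y - dd1 F.h F.h1 x y
      = dd1 (fun x => (1 - x) * F.p x) (fun x => - F.p x + (1 - x) * F.p1 x) x y := by
  unfold dd1
  split_ifs with hxy
  · unfold Profile.h1; ring
  · unfold Profile.h
    rw [← sub_div]
    congr 1
    ring

include hB h in
theorem jet_f (θ θ1 : ℝ) {P : Mat n} (hP : Pᵀ = P) {ϑ : ℝ → ℝ} (hϑ : J1 (𝓝[≥] 0) ϑ θ θ1) :
    J1 (𝓝[≥] 0) (fun t : ℝ => fP D (B + t • (D.A B c)⁻¹) (c + t • ((D.A B c)⁻¹ *ᵥ D.mu B c))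
          (Lᵀ * P * L)
        - ϑ t * gP F D (B + t • (D.A B c)⁻¹) (c + t • ((D.A B c)⁻¹ *ᵥ D.mu B c)) (Lᵀ * P * L))
      (NN P (frT L (D.T B c)) (frT L (D.T B c)) - θ * (P * P * P).trace)
      (- 6 * NN P (frT L (D.T B c)) (frT L (D.T B c))
          - ∑ a, F.p (β a) * NN P (fr5 L (D.R B c) a) (frT L (D.T B c))
        - θ * (3 * (Sflow F β (Matrix.diagonal fun i => F.p (β i)) * (P * P * P)).trace
          - ∑ a, F.p (β a) * (3 / 2 * (hK F D B c L β a * (P * P * P)).trace))
        - θ1 * (P * P * P).trace) := by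
  have hl : 𝓝[≥] (0 : ℝ) ≤ 𝓝 0 := nhdsWithin_le_nhds
  have hAp := D.posA B hB.posSemidef c
  set Q : Mat n := (D.A B c)⁻¹ with hQ
  have hQL : Q = Lᵀ * Matrix.diagonal (fun i => F.p (β i)) * L := h.inv_A
  have hQp : Q.PosSemidef := hAp.inv.posSemidef
  have hAQ : D.A B c * Q = 1 := by rw [hQL]; exact h.A_mul_Q hAp
  have hQe : ∀ k l, Q k l = ∑ a, F.p (β a) * (L a k * L a l) := by
    intro k l
    rw [hQL, Matrix.mul_apply]
    refine Finset.sum_congr rfl fun a _ => ?_
    rw [Matrix.mul_diagonal, Matrix.transpose_apply]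
    ring
  -- derivative of `A`
  set X : Mat n := -(D.A B c) - (1 / 2 : ℝ) • ∑ a, F.p (β a) • KKm L (D.K B c) a with hX
  have hA : ∀ i j, J1 (𝓝[≥] 0) (fun t : ℝ => D.A (B + t • Q) (c + t • (Q *ᵥ D.mu B c)) i j)
      (D.A B c i j) (X i j) := by
    intro i j
    have h1 := J1.of_hasDerivWithinAt (D.fA B hB.posSemidef c Q hQp i j)
    simp only [zero_smul, add_zero] at h1
    refine h1.congr_coef rfl ?_
    rw [hX, hAQ, Matrix.one_mul]
    simp only [Matrix.sub_apply, Matrix.neg_apply, Matrix.smul_apply, Matrix.sum_apply, KKm,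
      Matrix.of_apply, smul_eq_mul]
    congr 2
    simp only [hQe, Finset.sum_mul, Finset.mul_sum]
    have e1 : ∀ k, ∑ l, ∑ a, F.p (β a) * (L a k * L a l) * D.K B c i j k l
        = ∑ a, ∑ l, F.p (β a) * (L a k * L a l) * D.K B c i j k l := fun k => Finset.sum_comm
    simp only [e1]
    rw [Finset.sum_comm]
    refine Finset.sum_congr rfl fun a _ => Finset.sum_congr rfl fun k _ =>
      Finset.sum_congr rfl fun l _ => ?_
    ring
  -- derivative of `T`
  have hT : ∀ i j k, J1 (𝓝[≥] 0)
      (fun t : ℝ => D.T (B + t • Q) (c + t • (Q *ᵥ D.mu B c)) i j k)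
      (D.T B c i j k)
      ((fun i j k => -(3 * D.T B c i j k) - 1 / 2 * ∑ a, F.p (β a) *
        ∑ l, L a l * ∑ r, L a r * D.R B c i j k l r) i j k) := by
    intro i j k
    have h1 := J1.of_hasDerivWithinAt (D.fT B hB.posSemidef c Q hQp i j k)
    simp only [zero_smul, add_zero] at h1
    refine h1.congr_coef rfl ?_
    rw [hAQ]
    have e0 : ∑ l, ((1 : Mat n) i l * D.T B c l j k + (1 : Mat n) j l * D.T B c i l k
        + (1 : Mat n) k l * D.T B c i j l) = 3 * D.T B c i j k := by
      simp only [Matrix.one_apply, ite_mul, one_mul, zero_mul, Finset.sum_add_distrib,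
        Finset.sum_ite_eq, Finset.mem_univ, if_true]
      ring
    rw [e0]
    congr 2
    simp only [hQe, Finset.sum_mul, Finset.mul_sum]
    have e1 : ∀ l, ∑ r, ∑ a, F.p (β a) * (L a l * L a r) * D.R B c i j k l r
        = ∑ a, ∑ r, F.p (β a) * (L a l * L a r) * D.R B c i j k l r := fun k => Finset.sum_comm
    simp only [e1]
    rw [Finset.sum_comm]
    refine Finset.sum_congr rfl fun a _ => Finset.sum_congr rfl fun l _ =>
      Finset.sum_congr rfl fun r _ => ?_
    ring
  have hTf := frT_jet1 L hT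
  have hN := NN_jet1 hl hTf hP
  have hpd : ∀ t : ℝ, 0 ≤ t → (B + t • Q).PosDef := fun t ht =>
    hB.add_posSemidef (hQp.smul ht)
  have hS := Sf_jet1 hl h (A_symm' D B c) hA (Q := Matrix.diagonal fun i => F.p (β i)) (by
    rw [← hQL]
    filter_upwards [self_mem_nhdsWithin] with t ht
    exact ⟨A_symm' D _ _, exists_Fr (D.posA _ (hpd t ht).posSemidef _) (hpd t ht).isHermitian⟩)
  simp only [← hQL] at hS
  have hLX : L * X * Lᵀ = -(Matrix.diagonal fun i => 1 / F.p (β i))
      - (1 / 2 : ℝ) • ∑ a, F.p (β a) • KL D B c L a := by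
    rw [hX, Matrix.mul_sub, Matrix.sub_mul, Matrix.mul_neg, Matrix.neg_mul, h.hA]
    simp only [Matrix.mul_smul, Matrix.smul_mul, Matrix.mul_sum, Matrix.sum_mul, KL]
  have hS' : ∀ i j, J1 (𝓝[≥] 0)
      (fun t : ℝ => (L * Sf F.p (D.A (B + t • Q) (c + t • (Q *ᵥ D.mu B c))) (B + t • Q) * Lᵀ) i j)
      ((1 : Mat n) i j)
      ((Sflow F β (Matrix.diagonal fun i => F.p (β i))
        - (1 / 2 : ℝ) • ∑ a, F.p (β a) • hK F D B c L β a) i j) := by
    intro i j
    refine (hS i j).congr_coef rfl ?_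
    rw [hLX]
    simp only [Matrix.sub_apply, Matrix.neg_apply, Matrix.smul_apply, Matrix.sum_apply,
      smul_eq_mul, Sflow, hK, Matrix.of_apply, ← dd1_sub_h]
    have e2 : ∑ a, F.p (β a) * (dd1 F.h F.h1 (β i) (β j) * KL D B c L a i j)
        = dd1 F.h F.h1 (β i) (β j) * ∑ a, F.p (β a) * KL D B c L a i j := by
      rw [Finset.mul_sum]
      exact Finset.sum_congr rfl fun a _ => by ring
    rw [e2]
    rcases eq_or_ne i j with hij | hij
    · subst hij
      have hp := (h.ppos i).ne'
      simp only [Matrix.diagonal_apply_eq]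
      field_simp
      ring
    · simp only [Matrix.diagonal_apply_ne _ hij]
      ring
  have hG := tr_jet1 hl hS' P
  refine (hN.sub (hϑ.mul hl hG)).congr (Eventually.of_forall fun t => ?_) rfl ?_
  · show _ = fP D (B + t • Q) (c + t • (Q *ᵥ D.mu B c)) (Lᵀ * P * L)
        - ϑ t * gP F D (B + t • Q) (c + t • (Q *ᵥ D.mu B c)) (Lᵀ * P * L)
    rw [fP_frame, gP_frame]
  · have e3 : NN P (frT L fun i j k => -(3 * D.T B c i j k) - 1 / 2 * ∑ a, F.p (β a) *
        ∑ l, L a l * ∑ r, L a r * D.R B c i j k l r) (frT L (D.T B c))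
        = -3 * NN P (frT L (D.T B c)) (frT L (D.T B c))
          - 1 / 2 * ∑ a, F.p (β a) * NN P (fr5 L (D.R B c) a) (frT L (D.T B c)) := by
      have e4 : (frT L fun i j k => -(3 * D.T B c i j k) - 1 / 2 * ∑ a, F.p (β a) *
          ∑ l, L a l * ∑ r, L a r * D.R B c i j k l r)
          = fun i j k => -3 * frT L (D.T B c) i j k
            - 1 / 2 * ∑ a, F.p (β a) * fr5 L (D.R B c) a i j k := by
        funext i j k
        have e5 : ∑ a, F.p (β a) * fr5 L (D.R B c) a i j k
            = ∑ p, ∑ q, ∑ s, L i p * L j q * L k s * ∑ a, F.p (β a) *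
              ∑ l, L a l * ∑ r, L a r * D.R B c p q s l r := by
          unfold fr5 frT
          calc ∑ a, F.p (β a) * ∑ p, ∑ q, ∑ s, L i p * L j q * L k s *
                ∑ l, L a l * ∑ r, L a r * D.R B c p q s l r
              = ∑ a, ∑ p, ∑ q, ∑ s, F.p (β a) * (L i p * L j q * L k s *
                ∑ l, L a l * ∑ r, L a r * D.R B c p q s l r) := by
                simp only [Finset.mul_sum]
            _ = ∑ p, ∑ q, ∑ s, ∑ a, F.p (β a) * (L i p * L j q * L k s *
                ∑ l, L a l * ∑ r, L a r * D.R B c p q s l r) := by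
                rw [Finset.sum_comm]
                refine Finset.sum_congr rfl fun p _ => ?_
                rw [Finset.sum_comm]
                refine Finset.sum_congr rfl fun q _ => ?_
                rw [Finset.sum_comm]
            _ = _ := by
                refine Finset.sum_congr rfl fun p _ => Finset.sum_congr rfl fun q _ =>
                  Finset.sum_congr rfl fun s _ => ?_
                rw [Finset.mul_sum]
                refine Finset.sum_congr rfl fun a _ => ?_
                ring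
        rw [e5]
        unfold frT
        simp only [Finset.mul_sum (Finset.univ : Finset (Fin n)) _ (-3 : ℝ),
          Finset.mul_sum (Finset.univ : Finset (Fin n)) _ (1 / 2 : ℝ), ← Finset.sum_sub_distrib]
        refine Finset.sum_congr rfl fun p _ => Finset.sum_congr rfl fun q _ =>
          Finset.sum_congr rfl fun s _ => ?_
        simp only [← Finset.mul_sum (Finset.univ : Finset (Fin n)) _ (1 / 2 : ℝ)]
        ring
      rw [e4]
      unfold NN N3
      have e6 : ∑ a, F.p (β a) * ∑ i, ∑ j, ∑ k, ∑ i', ∑ j', ∑ k',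
            P i i' * P j j' * P k k' * fr5 L (D.R B c) a i j k * frT L (D.T B c) i' j' k'
          = ∑ i, ∑ j, ∑ k, ∑ i', ∑ j', ∑ k',
            P i i' * P j j' * P k k' * (∑ a, F.p (β a) * fr5 L (D.R B c) a i j k)
              * frT L (D.T B c) i' j' k' := by
        simp only [Finset.mul_sum, Finset.sum_mul]
        rw [Finset.sum_comm]
        refine Finset.sum_congr rfl fun i _ => ?_
        rw [Finset.sum_comm]
        refine Finset.sum_congr rfl fun j _ => ?_
        rw [Finset.sum_comm]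
        refine Finset.sum_congr rfl fun k _ => ?_
        rw [Finset.sum_comm]
        refine Finset.sum_congr rfl fun i' _ => ?_
        rw [Finset.sum_comm]
        refine Finset.sum_congr rfl fun j' _ => ?_
        rw [Finset.sum_comm]
        refine Finset.sum_congr rfl fun k' _ => ?_
        refine Finset.sum_congr rfl fun a _ => ?_
        ring
      rw [e6]
      simp only [Finset.mul_sum (Finset.univ : Finset (Fin n)) _ (-3 : ℝ),
          Finset.mul_sum (Finset.univ : Finset (Fin n)) _ (1 / 2 : ℝ), ← Finset.sum_sub_distrib]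
      refine Finset.sum_congr rfl fun i _ => Finset.sum_congr rfl fun j _ =>
        Finset.sum_congr rfl fun k _ => Finset.sum_congr rfl fun i' _ =>
        Finset.sum_congr rfl fun j' _ => Finset.sum_congr rfl fun k' _ => ?_
      simp only [← Finset.mul_sum (Finset.univ : Finset (Fin n)) _ (1 / 2 : ℝ)]
      ring
    rw [e3, Matrix.sub_mul, Matrix.trace_sub, Matrix.smul_mul, Matrix.trace_smul,
      Matrix.sum_mul, Matrix.trace_sum, smul_eq_mul]
    simp only [Matrix.smul_mul, Matrix.trace_smul, smul_eq_mul]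
    have e7 : ∑ a, F.p (β a) * (3 / 2 * (hK F D B c L β a * (P * P * P)).trace)
        = 3 / 2 * ∑ a, F.p (β a) * (hK F D B c L β a * (P * P * P)).trace := by
      rw [Finset.mul_sum]
      exact Finset.sum_congr rfl fun a _ => by ring
    rw [e7]
    ring

end contact

end Vale.Agent.P254.X452
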