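import Vale.Agent.P254.H452.XJet

/-!
P254, maximum principle block (X), part 2 (helper452): jets of `⟨T, P³ T⟩` and `tr (SP)³`.
-/

namespace Vale.Agent.P254.X452

open Matrix Polynomial Filter Topology Asymptotics Set
open Vale.Agent.P254.L Vale.Agent.P254.S526 Vale.Agent.P254.Z546

variable {n : ℕ}

/-! ### the form `N3` -/

theorem N3_jet2 {l : Filter ℝ} (hl : l ≤ 𝓝 0) {Tt : ℝ → Ten n} {T0 T1 T2 : Ten n}
    (hT : ∀ i j k, J2 l (fun t => Tt t i j k) (T0 i j k) (T1 i j k) (T2 i j k))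
    (P₁ P₂ P₃ : Mat n) :
    J2 l (fun t => N3 P₁ P₂ P₃ (Tt t) (Tt t)) (N3 P₁ P₂ P₃ T0 T0)
      (N3 P₁ P₂ P₃ T0 T1 + N3 P₁ P₂ P₃ T1 T0)
      (N3 P₁ P₂ P₃ T0 T2 + N3 P₁ P₂ P₃ T1 T1 + N3 P₁ P₂ P₃ T2 T0) := by
  have h := J2.sum Finset.univ (fun a _ => J2.sum Finset.univ (fun b _ =>
    J2.sum Finset.univ (fun c _ => J2.sum Finset.univ (fun a' _ => J2.sum Finset.univ (fun b' _ =>
    J2.sum Finset.univ (fun c' _ => ((hT a b c).mul hl (hT a' b' c')).const_mul
      (P₁ a a' * P₂ b b' * P₃ c c')))))))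
  refine h.congr (Eventually.of_forall fun t => ?_) ?_ ?_ ?_
  · simp only [N3, mul_assoc]
  · simp only [N3, mul_assoc]
  · simp only [N3, ← Finset.sum_add_distrib]
    refine Finset.sum_congr rfl fun a _ => Finset.sum_congr rfl fun b _ =>
      Finset.sum_congr rfl fun c _ => Finset.sum_congr rfl fun a' _ =>
      Finset.sum_congr rfl fun b' _ => Finset.sum_congr rfl fun c' _ => ?_
    ring
  · simp only [N3, ← Finset.sum_add_distrib]
    refine Finset.sum_congr rfl fun a _ => Finset.sum_congr rfl fun b _ =>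
      Finset.sum_congr rfl fun c _ => Finset.sum_congr rfl fun a' _ =>
      Finset.sum_congr rfl fun b' _ => Finset.sum_congr rfl fun c' _ => ?_
    ring

theorem N3_jet1 {l : Filter ℝ} (hl : l ≤ 𝓝 0) {Tt : ℝ → Ten n} {T0 T1 : Ten n}
    (hT : ∀ i j k, J1 l (fun t => Tt t i j k) (T0 i j k) (T1 i j k))
    (P₁ P₂ P₃ : Mat n) :
    J1 l (fun t => N3 P₁ P₂ P₃ (Tt t) (Tt t)) (N3 P₁ P₂ P₃ T0 T0)
      (N3 P₁ P₂ P₃ T0 T1 + N3 P₁ P₂ P₃ T1 T0) := by
  have h := J1.sum Finset.univ (fun a _ => J1.sum Finset.univ (fun b _ =>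
    J1.sum Finset.univ (fun c _ => J1.sum Finset.univ (fun a' _ => J1.sum Finset.univ (fun b' _ =>
    J1.sum Finset.univ (fun c' _ => ((hT a b c).mul hl (hT a' b' c')).const_mul
      (P₁ a a' * P₂ b b' * P₃ c c')))))))
  refine h.congr (Eventually.of_forall fun t => ?_) ?_ ?_
  · simp only [N3, mul_assoc]
  · simp only [N3, mul_assoc]
  · simp only [N3, ← Finset.sum_add_distrib]
    refine Finset.sum_congr rfl fun a _ => Finset.sum_congr rfl fun b _ =>
      Finset.sum_congr rfl fun c _ => Finset.sum_congr rfl fun a' _ =>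
      Finset.sum_congr rfl fun b' _ => Finset.sum_congr rfl fun c' _ => ?_
    ring

theorem N3_transpose (P₁ P₂ P₃ : Mat n) (T T' : Ten n) :
    N3 P₁ P₂ P₃ T T' = N3 P₁ᵀ P₂ᵀ P₃ᵀ T' T := by
  unfold N3
  simp only [Matrix.transpose_apply]
  calc ∑ a, ∑ b, ∑ c, ∑ a', ∑ b', ∑ c', P₁ a a' * P₂ b b' * P₃ c c' * T a b c * T' a' b' c'
      = ∑ p : Fin n × Fin n × Fin n, ∑ q : Fin n × Fin n × Fin n,
        P₁ p.1 q.1 * P₂ p.2.1 q.2.1 * P₃ p.2.2 q.2.2 * T p.1 p.2.1 p.2.2 *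
          T' q.1 q.2.1 q.2.2 := by
        simp only [Fintype.sum_prod_type]
    _ = ∑ q : Fin n × Fin n × Fin n, ∑ p : Fin n × Fin n × Fin n,
        P₁ p.1 q.1 * P₂ p.2.1 q.2.1 * P₃ p.2.2 q.2.2 * T p.1 p.2.1 p.2.2 *
          T' q.1 q.2.1 q.2.2 := Finset.sum_comm
    _ = _ := by
        simp only [Fintype.sum_prod_type]
        refine Finset.sum_congr rfl fun a _ => Finset.sum_congr rfl fun b _ =>
          Finset.sum_congr rfl fun c _ => Finset.sum_congr rfl fun a' _ =>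
          Finset.sum_congr rfl fun b' _ => Finset.sum_congr rfl fun c' _ => ?_
        ring

/-- swap of the first two slots -/
theorem N3_swap12 (P₁ P₂ P₃ : Mat n) {T T' : Ten n} (hT : TSymm T) (hT' : TSymm T') :
    N3 P₁ P₂ P₃ T T' = N3 P₂ P₁ P₃ T T' := by
  unfold N3
  rw [Finset.sum_comm]
  refine Finset.sum_congr rfl fun a _ => Finset.sum_congr rfl fun b _ =>
    Finset.sum_congr rfl fun c _ => ?_
  rw [Finset.sum_comm]
  refine Finset.sum_congr rfl fun a' _ => Finset.sum_congr rfl fun b' _ =>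
    Finset.sum_congr rfl fun c' _ => ?_
  rw [hT.1 b a c, hT'.1 b' a' c']
  ring

/-- swap of the last two slots -/
theorem N3_swap23 (P₁ P₂ P₃ : Mat n) {T T' : Ten n} (hT : TSymm T) (hT' : TSymm T') :
    N3 P₁ P₂ P₃ T T' = N3 P₁ P₃ P₂ T T' := by
  unfold N3
  refine Finset.sum_congr rfl fun a _ => ?_
  rw [Finset.sum_comm]
  refine Finset.sum_congr rfl fun b _ => Finset.sum_congr rfl fun c _ =>
    Finset.sum_congr rfl fun a' _ => ?_
  rw [Finset.sum_comm]
  refine Finset.sum_congr rfl fun b' _ => Finset.sum_congr rfl fun c' _ => ?_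
  rw [hT.2 a c b, hT'.2 a' c' b']
  ring

theorem NN_symm {P : Mat n} (hP : Pᵀ = P) (T T' : Ten n) : NN P T T' = NN P T' T := by
  unfold NN
  rw [N3_transpose, hP]

theorem N3_XPP {P X : Mat n} {T T' : Ten n} (hT : TSymm T) (hT' : TSymm T') :
    N3 P X P T T' = N3 X P P T T' ∧ N3 P P X T T' = N3 X P P T T' := by
  refine ⟨N3_swap12 _ _ _ hT hT', ?_⟩
  rw [N3_swap23 _ _ _ hT hT', N3_swap12 _ _ _ hT hT']

theorem N3_XXP {P X : Mat n} {T T' : Ten n} (hT : TSymm T) (hT' : TSymm T') :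
    N3 X P X T T' = N3 X X P T T' ∧ N3 P X X T T' = N3 X X P T T' := by
  refine ⟨N3_swap23 _ _ _ hT hT', ?_⟩
  rw [N3_swap12 _ _ _ hT hT', N3_swap23 _ _ _ hT hT']

theorem NN_expand (P X : Mat n) (T T' : Ten n) (t : ℝ) :
    NN (P + t • X) T T' = N3 P P P T T' + t * (N3 X P P T T' + N3 P X P T T' + N3 P P X T T')
      + t ^ 2 * (N3 X X P T T' + N3 X P X T T' + N3 P X X T T') + t ^ 3 * N3 X X X T T' := by
  unfold NN N3
  simp only [← Finset.sum_add_distrib, Finset.mul_sum]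
  refine Finset.sum_congr rfl fun a _ => Finset.sum_congr rfl fun b _ =>
    Finset.sum_congr rfl fun c _ => Finset.sum_congr rfl fun a' _ =>
    Finset.sum_congr rfl fun b' _ => Finset.sum_congr rfl fun c' _ => ?_
  simp only [Matrix.add_apply, Matrix.smul_apply, smul_eq_mul]
  ring

/-- second order jet of `⟨T, P³ T⟩` along `P + tX`, `T + t T1 + t² T2` -/
theorem NN_jet2 {l : Filter ℝ} (hl : l ≤ 𝓝 0) {Tt : ℝ → Ten n} {T0 T1 T2 : Ten n}
    (hT : ∀ i j k, J2 l (fun t => Tt t i j k) (T0 i j k) (T1 i j k) (T2 i j k))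
    (h0 : TSymm T0) (h1 : TSymm T1) {P X : Mat n}
    (hP : Pᵀ = P) (hX : Xᵀ = X) :
    J2 l (fun t => NN (P + t • X) (Tt t) (Tt t)) (NN P T0 T0)
      (2 * NN P T1 T0 + 3 * N3 X P P T0 T0)
      (NN P T1 T1 + 2 * NN P T2 T0 + 6 * N3 X P P T1 T0 + 3 * N3 X X P T0 T0) := by
  have hj : ∀ P₁ P₂ P₃ : Mat n, J2 l (fun t => N3 P₁ P₂ P₃ (Tt t) (Tt t)) (N3 P₁ P₂ P₃ T0 T0)
      (N3 P₁ P₂ P₃ T0 T1 + N3 P₁ P₂ P₃ T1 T0)
      (N3 P₁ P₂ P₃ T0 T2 + N3 P₁ P₂ P₃ T1 T1 + N3 P₁ P₂ P₃ T2 T0) := fun _ _ _ =>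
    N3_jet2 hl hT _ _ _
  have ht : J2 l (fun t : ℝ => t) 0 1 0 := J2.id
  have ht2 : J2 l (fun t : ℝ => t ^ 2) 0 0 1 := by
    refine (ht.mul hl ht).congr (Eventually.of_forall fun t => ?_) ?_ ?_ ?_ <;> ring
  have ht3 : J2 l (fun t : ℝ => t ^ 3) 0 0 0 := by
    refine (ht2.mul hl ht).congr (Eventually.of_forall fun t => ?_) ?_ ?_ ?_ <;> ring
  have h := (((hj P P P).add (ht.mul hl (((hj X P P).add (hj P X P)).add (hj P P X)))).add
    (ht2.mul hl (((hj X X P).add (hj X P X)).add (hj P X X)))).add (ht3.mul hl (hj X X X))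
  refine h.congr (Eventually.of_forall fun t => ?_) ?_ ?_ ?_
  · exact (NN_expand P X _ _ t).symm
  · unfold NN; ring
  · rw [(N3_XPP h0 h0).1, (N3_XPP h0 h0).2, N3_transpose P P P T0 T1, hP]
    unfold NN; ring
  · rw [(N3_XPP h0 h1).1, (N3_XPP h1 h0).1, (N3_XPP h0 h1).2, (N3_XPP h1 h0).2,
      (N3_XXP (P := P) (X := X) h0 h0).1, (N3_XXP (P := P) (X := X) h0 h0).2,
      N3_transpose P P P T0 T2, N3_transpose X P P T0 T1,
      hP, hX]
    unfold NN; ring

theorem NN_jet1 {l : Filter ℝ} (hl : l ≤ 𝓝 0) {Tt : ℝ → Ten n} {T0 T1 : Ten n}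
    (hT : ∀ i j k, J1 l (fun t => Tt t i j k) (T0 i j k) (T1 i j k)) {P : Mat n}
    (hP : Pᵀ = P) :
    J1 l (fun t => NN P (Tt t) (Tt t)) (NN P T0 T0) (2 * NN P T1 T0) := by
  refine (N3_jet1 hl hT P P P).congr_coef rfl ?_
  rw [N3_transpose P P P T0 T1, hP]
  unfold NN; ring

/-! ### matrices -/

theorem mul_jet2 {l : Filter ℝ} (hl : l ≤ 𝓝 0) {M N : ℝ → Mat n} {M0 M1 M2 N0 N1 N2 : Mat n}
    (hM : ∀ i j, J2 l (fun t => M t i j) (M0 i j) (M1 i j) (M2 i j))
    (hN : ∀ i j, J2 l (fun t => N t i j) (N0 i j) (N1 i j) (N2 i j)) (i j : Fin n) :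
    J2 l (fun t => (M t * N t) i j) ((M0 * N0) i j) ((M0 * N1 + M1 * N0) i j)
      ((M0 * N2 + M1 * N1 + M2 * N0) i j) := by
  have h := J2.sum Finset.univ (fun k _ => (hM i k).mul hl (hN k j))
  refine h.congr (Eventually.of_forall fun t => ?_) ?_ ?_ ?_
  · simp only [Matrix.mul_apply]
  · simp only [Matrix.mul_apply]
  · simp only [Matrix.mul_apply, Matrix.add_apply, Finset.sum_add_distrib]
  · simp only [Matrix.mul_apply, Matrix.add_apply, Finset.sum_add_distrib]

theorem mul_jet1 {l : Filter ℝ} (hl : l ≤ 𝓝 0) {M N : ℝ → Mat n} {M0 M1 N0 N1 : Mat n}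
    (hM : ∀ i j, J1 l (fun t => M t i j) (M0 i j) (M1 i j))
    (hN : ∀ i j, J1 l (fun t => N t i j) (N0 i j) (N1 i j)) (i j : Fin n) :
    J1 l (fun t => (M t * N t) i j) ((M0 * N0) i j) ((M0 * N1 + M1 * N0) i j) := by
  have h := J1.sum Finset.univ (fun k _ => (hM i k).mul hl (hN k j))
  refine h.congr (Eventually.of_forall fun t => ?_) ?_ ?_
  · simp only [Matrix.mul_apply]
  · simp only [Matrix.mul_apply]
  · simp only [Matrix.mul_apply, Matrix.add_apply, Finset.sum_add_distrib]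

theorem trace_jet2 {l : Filter ℝ} {M : ℝ → Mat n} {M0 M1 M2 : Mat n}
    (hM : ∀ i j, J2 l (fun t => M t i j) (M0 i j) (M1 i j) (M2 i j)) :
    J2 l (fun t => (M t).trace) M0.trace M1.trace M2.trace :=
  J2.sum Finset.univ (fun i _ => hM i i)

theorem trace_jet1 {l : Filter ℝ} {M : ℝ → Mat n} {M0 M1 : Mat n}
    (hM : ∀ i j, J1 l (fun t => M t i j) (M0 i j) (M1 i j)) :
    J1 l (fun t => (M t).trace) M0.trace M1.trace :=
  J1.sum Finset.univ (fun i _ => hM i i)

theorem tr3 (X Y Z : Mat n) : (X * Y * Z).trace = (Z * X * Y).trace := Matrix.trace_mul_cycle X Y Z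

/-- second order jet of `tr (SP)³`, `S = 1 + t σ1 + t² σ2`, `P + tX` -/
theorem tr_jet2 {l : Filter ℝ} (hl : l ≤ 𝓝 0) {St : ℝ → Mat n} {σ1 σ2 : Mat n}
    (hS : ∀ i j, J2 l (fun t => St t i j) ((1 : Mat n) i j) (σ1 i j) (σ2 i j)) (P X : Mat n) :
    J2 l (fun t => ((St t * (P + t • X)) ^ 3).trace) (P * P * P).trace
      (3 * (σ1 * (P * P * P)).trace + 3 * (X * (P * P)).trace)
      (3 * (σ2 * (P * P * P)).trace + 3 * (σ1 * P * σ1 * (P * P)).trace
        + 3 * (X * (σ1 * (P * P) + P * σ1 * P + P * P * σ1)).trace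
        + 3 * (X * X * P).trace) := by
  have hP : ∀ i j, J2 l (fun t => (P + t • X) i j) (P i j) (X i j) ((0 : Mat n) i j) := by
    intro i j
    refine ((J2.const (P i j)).add (J2.id.mul_const (X i j))).congr
      (Eventually.of_forall fun t => ?_) ?_ ?_ ?_
    · rfl
    · ring
    · ring
    · simp
  have h1 := mul_jet2 hl hS hP
  have h2 := mul_jet2 hl h1 h1
  have h3 := trace_jet2 (mul_jet2 hl h2 h1)
  refine h3.congr (Eventually.of_forall fun t => ?_) ?_ ?_ ?_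
  · show _ = ((St t * (P + t • X)) ^ 3).trace
    rw [pow_three']
  · simp only [Matrix.one_mul]
  · simp only [Matrix.one_mul, Matrix.mul_zero, zero_add, Matrix.mul_add, Matrix.add_mul,
      Matrix.trace_add]
    have a1 : (P * P * (σ1 * P)).trace = (σ1 * (P * P * P)).trace := by
      rw [Matrix.trace_mul_comm]; simp only [Matrix.mul_assoc]
    have a2 : (P * (σ1 * P) * P).trace = (σ1 * (P * P * P)).trace := by
      rw [Matrix.mul_assoc, Matrix.trace_mul_comm]; simp only [Matrix.mul_assoc]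
    have a3 : (σ1 * P * P * P).trace = (σ1 * (P * P * P)).trace := by
      simp only [Matrix.mul_assoc]
    have b1 : (P * P * X).trace = (X * (P * P)).trace := Matrix.trace_mul_comm _ _
    have b2 : (P * X * P).trace = (X * (P * P)).trace := by
      rw [Matrix.mul_assoc, Matrix.trace_mul_comm, Matrix.mul_assoc]
    have b3 : (X * P * P).trace = (X * (P * P)).trace := by rw [Matrix.mul_assoc]
    rw [a1, a2, a3, b1, b2, b3]
    ring
  · simp only [Matrix.one_mul, Matrix.mul_zero, zero_add, Matrix.mul_add, Matrix.add_mul,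
      Matrix.trace_add]
    have a1 : (P * P * (σ1 * X)).trace = (X * (P * P * σ1)).trace := by
      rw [← Matrix.mul_assoc, Matrix.trace_mul_comm]
    have a2 : (P * P * (σ2 * P)).trace = (σ2 * (P * P * P)).trace := by
      rw [Matrix.trace_mul_comm]; simp only [Matrix.mul_assoc]
    have a3 : (P * X * (σ1 * P)).trace = (X * (σ1 * (P * P))).trace := by
      rw [Matrix.mul_assoc, Matrix.trace_mul_comm]; simp only [Matrix.mul_assoc]
    have a4 : (P * (σ1 * P) * (σ1 * P)).trace = (σ1 * P * σ1 * (P * P)).trace := by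
      rw [Matrix.mul_assoc, Matrix.trace_mul_comm]; simp only [Matrix.mul_assoc]
    have a5 : (P * (σ1 * P) * X).trace = (X * (P * σ1 * P)).trace := by
      rw [Matrix.trace_mul_comm]; simp only [Matrix.mul_assoc]
    have a6 : (P * X * X).trace = (X * X * P).trace := by
      rw [Matrix.mul_assoc, Matrix.trace_mul_comm]
    have a7 : (X * P * (σ1 * P)).trace = (X * (P * σ1 * P)).trace := by
      simp only [Matrix.mul_assoc]
    have a8 : (X * P * X).trace = (X * X * P).trace := by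
      rw [Matrix.trace_mul_comm]; simp only [Matrix.mul_assoc]
    have a9 : (σ1 * P * P * (σ1 * P)).trace = (σ1 * P * σ1 * (P * P)).trace := by
      rw [Matrix.trace_mul_comm]; simp only [Matrix.mul_assoc]
    have a10 : (σ1 * P * P * X).trace = (X * (σ1 * (P * P))).trace := by
      rw [Matrix.trace_mul_comm]; simp only [Matrix.mul_assoc]
    have a11 : (P * (σ1 * X) * P).trace = (X * (P * P * σ1)).trace := by
      rw [Matrix.mul_assoc, Matrix.trace_mul_comm]; simp only [Matrix.mul_assoc]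
      rw [Matrix.trace_mul_comm]; simp only [Matrix.mul_assoc]
    have a12 : (P * (σ2 * P) * P).trace = (σ2 * (P * P * P)).trace := by
      rw [Matrix.mul_assoc, Matrix.trace_mul_comm]; simp only [Matrix.mul_assoc]
    have a13 : (X * (σ1 * P) * P).trace = (X * (σ1 * (P * P))).trace := by
      simp only [Matrix.mul_assoc]
    have a14 : (σ1 * P * (σ1 * P) * P).trace = (σ1 * P * σ1 * (P * P)).trace := by
      simp only [Matrix.mul_assoc]
    have a15 : (X * X * P).trace = (X * X * P).trace := rfl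
    have a16 : (σ1 * P * X * P).trace = (X * (P * σ1 * P)).trace := by
      rw [Matrix.mul_assoc, Matrix.trace_mul_comm]; simp only [Matrix.mul_assoc]
    have a17 : (σ1 * X * P * P).trace = (X * (P * P * σ1)).trace := by
      rw [Matrix.mul_assoc, Matrix.mul_assoc, Matrix.trace_mul_comm]
      simp only [Matrix.mul_assoc]
    have a18 : (σ2 * P * P * P).trace = (σ2 * (P * P * P)).trace := by
      simp only [Matrix.mul_assoc]
    rw [a1, a2, a3, a4, a5, a6, a7, a8, a9, a10, a11, a12, a13, a14, a16, a17, a18]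
    ring

theorem tr_jet1 {l : Filter ℝ} (hl : l ≤ 𝓝 0) {St : ℝ → Mat n} {σ1 : Mat n}
    (hS : ∀ i j, J1 l (fun t => St t i j) ((1 : Mat n) i j) (σ1 i j)) (P : Mat n) :
    J1 l (fun t => ((St t * P) ^ 3).trace) (P * P * P).trace
      (3 * (σ1 * (P * P * P)).trace) := by
  have hP : ∀ i j, J1 l (fun _ : ℝ => P i j) (P i j) ((0 : Mat n) i j) := by
    intro i j
    exact (J1.const (P i j)).congr_coef rfl (by simp)
  have h1 := mul_jet1 hl hS hP
  have h2 := mul_jet1 hl h1 h1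
  have h3 := trace_jet1 (mul_jet1 hl h2 h1)
  refine h3.congr (Eventually.of_forall fun t => ?_) ?_ ?_
  · show _ = ((St t * P) ^ 3).trace
    rw [pow_three']
  · simp only [Matrix.one_mul]
  · simp only [Matrix.one_mul, Matrix.mul_zero, zero_add, Matrix.mul_add, Matrix.add_mul,
      Matrix.trace_add]
    have a1 : (P * P * (σ1 * P)).trace = (σ1 * (P * P * P)).trace := by
      rw [Matrix.trace_mul_comm]; simp only [Matrix.mul_assoc]
    have a2 : (P * (σ1 * P) * P).trace = (σ1 * (P * P * P)).trace := by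
      rw [Matrix.mul_assoc, Matrix.trace_mul_comm]; simp only [Matrix.mul_assoc]
    have a3 : (σ1 * P * P * P).trace = (σ1 * (P * P * P)).trace := by
      simp only [Matrix.mul_assoc]
    rw [a1, a2, a3]
    ring

/-- `tr (UV)³ = tr (VU)³` -/
theorem trace_cube_comm (U V : Mat n) : ((U * V) ^ 3).trace = ((V * U) ^ 3).trace := by
  have e : (U * V) ^ 3 = U * ((V * U) ^ 2 * V) := by
    rw [pow_three', sq]; simp only [Matrix.mul_assoc]
  rw [e, Matrix.trace_mul_comm, Matrix.mul_assoc, ← pow_succ]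

end Vale.Agent.P254.X452
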