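import Vale.Agent.P254.H452.XFin

/-!
P254, maximum principle block (X), part 5 (helper452): domain, boundary estimates, existence of
the last contact, and the theorem `ALGstd F → StX F`.
-/

namespace Vale.Agent.P254.X452

open Matrix Polynomial Filter Topology Asymptotics Set
open Vale.Agent.P254.L Vale.Agent.P254.S526 Vale.Agent.P254.Z546

variable {n : ℕ} {F : Profile} {D : TiltData n}

/-! ### homogeneity -/

theorem fP_smul (B : Mat n) (c : Vec n) (P : Mat n) (r : ℝ) :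
    fP D B c (r • P) = r ^ 3 * fP D B c P := by
  unfold fP NN N3
  simp only [Finset.mul_sum]
  refine Finset.sum_congr rfl fun a _ => Finset.sum_congr rfl fun b _ =>
    Finset.sum_congr rfl fun c _ => Finset.sum_congr rfl fun a' _ =>
    Finset.sum_congr rfl fun b' _ => Finset.sum_congr rfl fun c' _ => ?_
  simp only [Matrix.smul_apply, smul_eq_mul]
  ring

theorem gP_smul (B : Mat n) (c : Vec n) (P : Mat n) (r : ℝ) :
    gP F D B c (r • P) = r ^ 3 * gP F D B c P := by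
  unfold gP
  rw [Matrix.mul_smul, _root_.smul_pow, Matrix.trace_smul, smul_eq_mul]

theorem trace_pos_of {P : Mat n} (hP : P.PosSemidef) (h0 : P ≠ 0) : 0 < P.trace :=
  lt_of_le_of_ne hP.trace_nonneg fun h => h0 (hP.trace_eq_zero_iff.1 h.symm)

/-- from trace one to all positive semidefinite matrices -/
theorem le_of_trace_one {B : Mat n} {c : Vec n} {θ : ℝ}
    (h : ∀ P : Mat n, P.PosSemidef → P.trace = 1 → fP D B c P ≤ θ * gP F D B c P) :
    ∀ P : Mat n, P.PosSemidef → fP D B c P ≤ θ * gP F D B c P := by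
  intro P hP
  rcases eq_or_ne P 0 with h0 | h0
  · subst h0
    have e1 : fP D B c (0 : Mat n) = 0 := by
      have := fP_smul (D := D) B c (0 : Mat n) 0
      simpa using this
    have e2 : gP F D B c (0 : Mat n) = 0 := by
      have := gP_smul (F := F) (D := D) B c (0 : Mat n) 0
      simpa using this
    rw [e1, e2, mul_zero]
  · have hr := trace_pos_of hP h0
    set r := P.trace with hrd
    have e : P = r • (r⁻¹ • P) := by rw [smul_smul, mul_inv_cancel₀ hr.ne', one_smul]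
    rw [e, fP_smul, gP_smul]
    have h1 := h (r⁻¹ • P) (hP.smul (inv_nonneg.2 hr.le)) (by
      rw [Matrix.trace_smul, smul_eq_mul, ← hrd, inv_mul_cancel₀ hr.ne'])
    have h2 : 0 ≤ r ^ 3 := by positivity
    nlinarith [mul_le_mul_of_nonneg_left h1 h2]

/-! ### power mean -/

theorem trace_cube_ge {P : Mat n} (hP : P.PosSemidef) :
    P.trace ^ 3 ≤ (n : ℝ) ^ 2 * (P * P * P).trace := by
  obtain ⟨U, lam, h1, h2, h3, h4⟩ := spec_symm hP.isHermitian
  have hlam : ∀ i, 0 ≤ lam i := fun i => by rw [h4]; exact hP.eigenvalues_nonneg i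
  have e1 : P.trace = ∑ i, lam i := by
    rw [h3, Matrix.trace_mul_comm, ← Matrix.mul_assoc, h1, Matrix.one_mul, Matrix.trace_diagonal]
  have e2 : (P * P * P).trace = ∑ i, lam i ^ 3 := by
    have : P * P * P = U * Matrix.diagonal (fun i => lam i ^ 3) * Uᵀ := by
      conv_lhs => rw [h3]
      calc U * Matrix.diagonal lam * Uᵀ * (U * Matrix.diagonal lam * Uᵀ) *
            (U * Matrix.diagonal lam * Uᵀ)
          = U * Matrix.diagonal lam * (Uᵀ * U) * Matrix.diagonal lam * (Uᵀ * U)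
            * Matrix.diagonal lam * Uᵀ := by simp only [Matrix.mul_assoc]
        _ = U * (Matrix.diagonal lam * Matrix.diagonal lam * Matrix.diagonal lam) * Uᵀ := by
            rw [h1, Matrix.mul_one, Matrix.mul_one]
            simp only [Matrix.mul_assoc]
        _ = _ := by
            rw [Matrix.diagonal_mul_diagonal, Matrix.diagonal_mul_diagonal]
            congr 3
            funext i
            ring
    rw [this, Matrix.trace_mul_comm, ← Matrix.mul_assoc, h1, Matrix.one_mul,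
      Matrix.trace_diagonal]
  rw [e1, e2]
  have h5 := pow_sum_div_card_le_sum_pow (s := (Finset.univ : Finset (Fin n))) (f := lam)
    (fun a _ => hlam a) 2
  rw [Finset.card_univ, Fintype.card_fin] at h5
  rcases Nat.eq_zero_or_pos n with hn | hn
  · subst hn; simp
  · have hn' : (0 : ℝ) < (n : ℝ) ^ 2 := by positivity
    rw [div_le_iff₀ hn'] at h5
    norm_num at h5
    linarith

/-! ### frame estimates -/

theorem exists_SFr {B : Mat n} (hB : B.PosDef) (c : Vec n) :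
    ∃ (L : Mat n) (β : Vec n), SFr F (D.A B c) B L β ∧
      ∃ L₁ : Mat n, Fr (D.A B c) B L₁ β := by
  obtain ⟨L, β, h⟩ := exists_Fr (D.posA B hB.posSemidef c) hB.isHermitian
  exact ⟨_, β, SFr.of_Fr h (h.beta_mem hB c), L, h⟩

theorem frame_repr {L : Mat n} (hL : IsUnit L) {P : Mat n} (hP : P.PosSemidef) :
    ∃ P' : Mat n, P'.PosSemidef ∧ P = Lᵀ * P' * L := by
  obtain ⟨W, hW⟩ := hL.exists_right_inv
  have hW' : W * L = 1 := mul_eq_one_comm.1 hW
  have hT : Lᵀ * Wᵀ = 1 := by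
    rw [← Matrix.transpose_mul, hW', Matrix.transpose_one]
  have e : P = Lᵀ * (Wᵀ * P * W) * L := by
    calc P = (Lᵀ * Wᵀ) * P * (W * L) := by rw [hT, hW', Matrix.one_mul, Matrix.mul_one]
      _ = _ := by simp only [Matrix.mul_assoc]
  refine ⟨Wᵀ * P * W, ?_, e⟩
  rw [← psd_conj_iff hL, ← e]
  exact hP

/-- `1 - β ≥ m / b` when `B + M ≤ b` -/
theorem beta_up {B : Mat n} (hB : B.PosDef) (c : Vec n) {L₁ : Mat n} {β : Vec n}
    (h : Fr (D.A B c) B L₁ β) {b : ℝ} (hb : 0 < b)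
    (hBb : (b • (1 : Mat n) - (B + D.M • (1 : Mat n))).PosSemidef) (i : Fin n) :
    D.m / b ≤ 1 - β i := by
  have h1 := D.up B hB.posSemidef c
  have h2 := D.lo B hB.posSemidef c
  have hm := D.hm
  -- `A⁻¹ - B ≥ m ≥ (m/b) A⁻¹`
  have h3 : ((D.A B c)⁻¹ - B - (D.m / b) • (D.A B c)⁻¹).PosSemidef := by
    have h4 := h1.add ((h2.add hBb).smul (show (0 : ℝ) ≤ D.m / b by positivity))
    refine cast (congrArg Matrix.PosSemidef ?_) h4
    ext i j
    simp only [Matrix.sub_apply, Matrix.smul_apply, Matrix.add_apply, smul_eq_mul]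
    field_simp
    ring
  have e : (D.A B c)⁻¹ - B - (D.m / b) • (D.A B c)⁻¹
      = L₁ᵀ * Matrix.diagonal (fun i => 1 - β i - D.m / b) * L₁ := by
    have e1 : (Matrix.diagonal fun i => 1 - β i - D.m / b : Mat n)
        = (1 : Mat n) - Matrix.diagonal β - (D.m / b) • (1 : Mat n) := by
      rw [Matrix.smul_one_eq_diagonal, ← Matrix.diagonal_one, Matrix.diagonal_sub,
        Matrix.diagonal_sub]
    rw [e1, Matrix.mul_sub, Matrix.mul_sub, Matrix.sub_mul, Matrix.sub_mul, Matrix.mul_one,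
      Matrix.mul_smul, Matrix.smul_mul, Matrix.mul_one, ← h.inv_A, ← h.hB]
  rw [e, psd_conj_iff h.isUnit, Matrix.posSemidef_diagonal_iff] at h3
  have := h3 i
  linarith

/-- `β ≥ λ₀ / b` when `λ₀ ≤ B`, `B + M ≤ b` -/
theorem beta_low {B : Mat n} (hB : B.PosDef) (c : Vec n) {L₁ : Mat n} {β : Vec n}
    (h : Fr (D.A B c) B L₁ β) {b lam : ℝ} (hb : 0 < b) (hlam : 0 ≤ lam)
    (hBb : (b • (1 : Mat n) - (B + D.M • (1 : Mat n))).PosSemidef)
    (hBl : (B - lam • (1 : Mat n)).PosSemidef) (i : Fin n) :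
    lam / b ≤ β i := by
  have h2 := D.lo B hB.posSemidef c
  have h3 : (B - (lam / b) • (D.A B c)⁻¹).PosSemidef := by
    have h4 := hBl.add ((h2.add hBb).smul (show (0 : ℝ) ≤ lam / b by positivity))
    refine cast (congrArg Matrix.PosSemidef ?_) h4
    ext i j
    simp only [Matrix.sub_apply, Matrix.smul_apply, Matrix.add_apply, smul_eq_mul]
    field_simp
    ring
  have e : B - (lam / b) • (D.A B c)⁻¹
      = L₁ᵀ * Matrix.diagonal (fun i => β i - lam / b) * L₁ := by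
    have e1 : (Matrix.diagonal fun i => β i - lam / b : Mat n)
        = Matrix.diagonal β - (lam / b) • (1 : Mat n) := by
      rw [Matrix.smul_one_eq_diagonal, Matrix.diagonal_sub]
    rw [e1, Matrix.mul_sub, Matrix.sub_mul, Matrix.mul_smul, Matrix.smul_mul, Matrix.mul_one,
      ← h.inv_A, ← h.hB]
  rw [e, psd_conj_iff h.isUnit, Matrix.posSemidef_diagonal_iff] at h3
  have := h3 i
  linarith

/-- lower bound of `g` -/
theorem g_lower {κ : ℝ} (hκ : 0 < κ) (hF : ∀ x ∈ Ioo (0 : ℝ) 1, κ * (1 - x) ^ 2 ≤ F.p x ^ 3)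
    {B : Mat n} (hB : B.PosDef) (c : Vec n) {b : ℝ} (hb : 0 < b)
    (hBb : (b • (1 : Mat n) - (B + D.M • (1 : Mat n))).PosSemidef)
    {P : Mat n} (hP : P.PosSemidef) :
    κ * (D.m / b) ^ 2 * (D.A B c * P).trace ^ 3 ≤ (n : ℝ) ^ 2 * gP F D B c P := by
  obtain ⟨L, β, h, L₁, h₁⟩ := exists_SFr (F := F) (D := D) hB c
  obtain ⟨P', hP', rfl⟩ := frame_repr h.unit hP
  rw [gP_zero h]
  have hm := D.hm
  have e1 : (D.A B c * (Lᵀ * P' * L)).trace = ∑ i, 1 / F.p (β i) * P' i i := by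
    have : D.A B c * (Lᵀ * P' * L) = (D.A B c * Lᵀ * P') * L := by simp only [Matrix.mul_assoc]
    rw [this, Matrix.trace_mul_comm]
    have e2 : L * (D.A B c * Lᵀ * P') = (L * D.A B c * Lᵀ) * P' := by
      simp only [Matrix.mul_assoc]
    rw [e2, h.hA]
    simp only [Matrix.trace, Matrix.diag_apply, Matrix.diagonal_mul]
  set q : ℝ := κ * (D.m / b) ^ 2 with hq
  have hq0 : 0 < q := by positivity
  obtain ⟨π, hπ0, hπ⟩ : ∃ π : ℝ, 0 < π ∧ π ^ 3 = q :=
    ⟨q ^ ((1 : ℝ) / 3), Real.rpow_pos_of_pos hq0 _, by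
      rw [← Real.rpow_natCast, ← Real.rpow_mul hq0.le]; norm_num⟩
  have hpi : ∀ i, π ≤ F.p (β i) := by
    intro i
    have h3 := hF _ (h.mem i)
    have h4 := beta_up hB c h₁ hb hBb i
    have h5 : (D.m / b) ^ 2 ≤ (1 - β i) ^ 2 := by
      have : 0 ≤ D.m / b := by positivity
      exact pow_le_pow_left₀ this h4 2
    have h6 : π ^ 3 ≤ F.p (β i) ^ 3 := by
      rw [hπ, hq]
      exact (mul_le_mul_of_nonneg_left h5 hκ.le).trans h3
    exact le_of_pow_le_pow_left₀ (by norm_num) (h.ppos i).le h6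
  have h7 : (D.A B c * (Lᵀ * P' * L)).trace ≤ π⁻¹ * P'.trace := by
    rw [e1, Matrix.trace, Finset.mul_sum]
    refine Finset.sum_le_sum fun i _ => ?_
    rw [Matrix.diag_apply]
    refine mul_le_mul_of_nonneg_right ?_ hP'.diag_nonneg
    rw [one_div]
    exact inv_anti₀ hπ0 (hpi i)
  have h8 : 0 ≤ (D.A B c * (Lᵀ * P' * L)).trace := by
    rw [e1]
    exact Finset.sum_nonneg fun i _ => mul_nonneg (one_div_nonneg.2 (h.ppos i).le) hP'.diag_nonneg
  have h9 := trace_cube_ge hP'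
  calc q * (D.A B c * (Lᵀ * P' * L)).trace ^ 3 ≤ q * (π⁻¹ * P'.trace) ^ 3 := by
        gcongr
    _ = P'.trace ^ 3 := by
        rw [mul_pow, inv_pow, hπ]
        field_simp
    _ ≤ _ := h9

theorem trace_AP_pos {B : Mat n} (hB : B.PosDef) (c : Vec n) {P : Mat n} (hP : P.PosSemidef)
    (h0 : P ≠ 0) : 0 < (D.A B c * P).trace := by
  obtain ⟨L₁, β, h₁⟩ := exists_Fr (D.posA B hB.posSemidef c) hB.isHermitian
  obtain ⟨P', hP', rfl⟩ := frame_repr h₁.isUnit hP
  have e1 : (D.A B c * (L₁ᵀ * P' * L₁)).trace = P'.trace := by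
    have : D.A B c * (L₁ᵀ * P' * L₁) = (D.A B c * L₁ᵀ * P') * L₁ := by
      simp only [Matrix.mul_assoc]
    rw [this, Matrix.trace_mul_comm]
    have e2 : L₁ * (D.A B c * L₁ᵀ * P') = (L₁ * D.A B c * L₁ᵀ) * P' := by
      simp only [Matrix.mul_assoc]
    rw [e2, h₁.hA, Matrix.one_mul]
  rw [e1]
  refine trace_pos_of hP' ?_
  rintro rfl
  exact h0 (by simp)

/-! ### the domain -/

/-- `1 ≤ τ ≤ S`, `τ (B0 + m) ≤ B + m`, `B + M ≤ τ (B0 + M)`, `|c| ≤ ρ`, `P ≥ 0`, `tr P = 1` -/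
def DX (D : TiltData n) (B0 : Mat n) (S ρ : ℝ) : Set (ℝ × Mat n × Vec n × Mat n) :=
  {p | p.1 ∈ Icc 1 S ∧
    ((p.2.1 + D.m • (1 : Mat n)) - p.1 • (B0 + D.m • (1 : Mat n))).PosSemidef ∧
    (p.1 • (B0 + D.M • (1 : Mat n)) - (p.2.1 + D.M • (1 : Mat n))).PosSemidef ∧
    ‖p.2.2.1‖ ≤ ρ ∧ p.2.2.2.PosSemidef ∧ p.2.2.2.trace = 1}

theorem DX_B {B0 : Mat n} (hB0 : B0.PosDef) {S ρ : ℝ} {p : ℝ × Mat n × Vec n × Mat n}
    (hp : p ∈ DX D B0 S ρ) :
    (p.2.1 - (B0 + ((p.1 - 1) * D.m) • (1 : Mat n))).PosSemidef := by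
  obtain ⟨h1, h2, -⟩ := hp
  have h3 := h2.add (hB0.posSemidef.smul (sub_nonneg.2 h1.1))
  refine cast (congrArg Matrix.PosSemidef ?_) h3
  ext i j
  simp only [Matrix.sub_apply, Matrix.smul_apply, Matrix.add_apply, smul_eq_mul]
  ring

theorem DX_posDef {B0 : Mat n} (hB0 : B0.PosDef) {S ρ : ℝ} {p : ℝ × Mat n × Vec n × Mat n}
    (hp : p ∈ DX D B0 S ρ) : p.2.1.PosDef := by
  have h1 := DX_B hB0 hp
  have h2 : 0 ≤ (p.1 - 1) * D.m := mul_nonneg (sub_nonneg.2 hp.1.1) D.hm.le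
  have h3 := hB0.add_posSemidef (h1.add (Matrix.PosSemidef.one.smul h2))
  refine cast (congrArg Matrix.PosDef ?_) h3
  abel

theorem DX_up {B0 : Mat n} {R : ℝ}
    (hR : (R • (1 : Mat n) - (B0 + D.M • (1 : Mat n))).PosSemidef) {S ρ : ℝ}
    {p : ℝ × Mat n × Vec n × Mat n} (hp : p ∈ DX D B0 S ρ) :
    ((p.1 * R) • (1 : Mat n) - (p.2.1 + D.M • (1 : Mat n))).PosSemidef := by
  obtain ⟨h1, -, h2, -⟩ := hp
  have h3 := h2.add (hR.smul (zero_le_one.trans h1.1))
  refine cast (congrArg Matrix.PosSemidef ?_) h3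
  ext i j
  simp only [Matrix.sub_apply, Matrix.smul_apply, Matrix.add_apply, smul_eq_mul]
  ring

theorem DX_up' {B0 : Mat n} {R : ℝ} (hR0 : 0 ≤ R)
    (hR : (R • (1 : Mat n) - (B0 + D.M • (1 : Mat n))).PosSemidef) {S ρ : ℝ}
    {p : ℝ × Mat n × Vec n × Mat n} (hp : p ∈ DX D B0 S ρ) :
    ((S * R) • (1 : Mat n) - (p.2.1 + D.M • (1 : Mat n))).PosSemidef := by
  have h1 := (DX_up hR hp).add (psd_mono_smul (mul_le_mul_of_nonneg_right hp.1.2 hR0))
  refine cast (congrArg Matrix.PosSemidef ?_) h1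
  abel

theorem DX_compact {B0 : Mat n} (hB0 : B0.PosDef) {S ρ : ℝ} : IsCompact (DX D B0 S ρ) := by
  obtain ⟨R, hR0, hR⟩ := exists_smul_ge (B0 + D.M • (1 : Mat n)) (by
    rw [Matrix.transpose_add, (psd_iff.1 hB0.posSemidef).1, Matrix.transpose_smul,
      Matrix.transpose_one])
  have hM0 : 0 ≤ D.M := (D.hm.trans_le D.hM).le
  have hK : IsCompact (Icc (1 : ℝ) S ×ˢ ({M : Mat n | ∀ i j, M i j ∈ Icc (-(S * R)) (S * R)} ×ˢ
      (Metric.closedBall (0 : Vec n) ρ ×ˢ {M : Mat n | ∀ i j, M i j ∈ Icc (-(1 : ℝ)) 1}))) :=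
    isCompact_Icc.prod ((isCompact_box _).prod ((isCompact_closedBall _ _).prod (isCompact_box _)))
  refine hK.of_isClosed_subset ?_ ?_
  · have c1 : Continuous fun p : ℝ × Mat n × Vec n × Mat n =>
        (p.2.1 + D.m • (1 : Mat n)) - p.1 • (B0 + D.m • (1 : Mat n)) := by
      fun_prop
    have c2 : Continuous fun p : ℝ × Mat n × Vec n × Mat n =>
        p.1 • (B0 + D.M • (1 : Mat n)) - (p.2.1 + D.M • (1 : Mat n)) := by
      fun_prop
    have c3 : Continuous fun p : ℝ × Mat n × Vec n × Mat n => p.2.2.2 := by fun_prop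
    have i1 : IsClosed {p : ℝ × Mat n × Vec n × Mat n | p.1 ∈ Icc 1 S} :=
      isClosed_Icc.preimage continuous_fst
    have i2 := isClosed_psd.preimage c1
    have i3 := isClosed_psd.preimage c2
    have i4 : IsClosed {p : ℝ × Mat n × Vec n × Mat n | ‖p.2.2.1‖ ≤ ρ} :=
      isClosed_le (by fun_prop) continuous_const
    have i5 := isClosed_psd.preimage c3
    have i6 : IsClosed {p : ℝ × Mat n × Vec n × Mat n | p.2.2.2.trace = 1} :=
      isClosed_eq (c3.matrix_trace) continuous_const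
    have e : DX D B0 S ρ = {p : ℝ × Mat n × Vec n × Mat n | p.1 ∈ Icc 1 S} ∩
        (((fun p : ℝ × Mat n × Vec n × Mat n =>
          (p.2.1 + D.m • (1 : Mat n)) - p.1 • (B0 + D.m • (1 : Mat n))) ⁻¹'
          {M : Mat n | M.PosSemidef}) ∩
        (((fun p : ℝ × Mat n × Vec n × Mat n =>
          p.1 • (B0 + D.M • (1 : Mat n)) - (p.2.1 + D.M • (1 : Mat n))) ⁻¹'
          {M : Mat n | M.PosSemidef}) ∩ ({p : ℝ × Mat n × Vec n × Mat n | ‖p.2.2.1‖ ≤ ρ} ∩
          (((fun p : ℝ × Mat n × Vec n × Mat n => p.2.2.2) ⁻¹' {M : Mat n | M.PosSemidef}) ∩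
          {p : ℝ × Mat n × Vec n × Mat n | p.2.2.2.trace = 1})))) := rfl
    rw [e]
    exact i1.inter (i2.inter (i3.inter (i4.inter (i5.inter i6))))
  · rintro p hp
    have h1 := DX_up' hR0 hR hp
    have h2 := DX_posDef hB0 hp
    obtain ⟨h3, -, -, h4, h5, h6⟩ := hp
    have h7 : ((S * R) • (1 : Mat n) - p.2.1).PosSemidef := by
      have := h1.add (Matrix.PosSemidef.one.smul hM0)
      refine cast (congrArg Matrix.PosSemidef ?_) this
      abel
    refine ⟨h3, ?_, ?_, ?_⟩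
    · intro i j
      have h5 := psd_entry h2.posSemidef i j
      have h6 := psd_diag_le h7 i
      have h7 := psd_diag_le h7 j
      exact abs_le.1 (h5.trans (by linarith))
    · simpa using h4
    · intro i j
      have h8 := Fr.abs_le_trace h5 i j
      rw [h6] at h8
      exact abs_le.1 h8

theorem DX_step {B0 : Mat n} (hB0 : B0.PosDef) {S ρ τ : ℝ} {B : Mat n} {c₀ c c' : Vec n}
    {P P' : Mat n} (hp : (τ, B, c₀, P) ∈ DX D B0 S ρ) {t : ℝ} (ht : 0 ≤ t)
    (hs : τ * (1 + t) ≤ S) (hc' : ‖c'‖ ≤ ρ) (hP' : P'.PosSemidef) (hP1 : P'.trace = 1) :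
    (τ * (1 + t), B + t • (D.A B c)⁻¹, c', P') ∈ DX D B0 S ρ := by
  have hB : B.PosDef := DX_posDef hB0 hp
  obtain ⟨k1, k2, k3, k4, -, -⟩ := hp
  simp only at k1 k2 k3 k4
  have hup := D.up B hB.posSemidef c
  have hlo := D.lo B hB.posSemidef c
  have hτ0 : 0 ≤ τ := zero_le_one.trans k1.1
  refine ⟨⟨?_, hs⟩, ?_, ?_, hc', hP', hP1⟩
  · show 1 ≤ τ * (1 + t)
    nlinarith [k1.1]
  · have e2 := (k2.smul (show (0 : ℝ) ≤ 1 + t by linarith)).add (hup.smul ht)
    refine cast (congrArg Matrix.PosSemidef ?_) e2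
    ext i j
    simp only [Matrix.sub_apply, Matrix.smul_apply, Matrix.add_apply, smul_eq_mul]
    ring
  · have e2 := (k3.smul (show (0 : ℝ) ≤ 1 + t by linarith)).add (hlo.smul ht)
    refine cast (congrArg Matrix.PosSemidef ?_) e2
    ext i j
    simp only [Matrix.sub_apply, Matrix.smul_apply, Matrix.add_apply, smul_eq_mul]
    ring

/-! ### continuity -/

theorem fP_cont {B0 : Mat n} (hB0 : B0.PosDef) {S ρ : ℝ} :
    ContinuousOn (fun p : ℝ × Mat n × Vec n × Mat n => fP D p.2.1 p.2.2.1 p.2.2.2)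
      (DX D B0 S ρ) := by
  have hT : ∀ i j k, ContinuousOn
      (fun p : ℝ × Mat n × Vec n × Mat n => D.T p.2.1 p.2.2.1 i j k) (DX D B0 S ρ) := by
    intro i j k
    have hc : Continuous fun p : ℝ × Mat n × Vec n × Mat n => (p.2.1, p.2.2.1) := by fun_prop
    exact (D.cT i j k).comp hc.continuousOn fun p hp => ⟨(DX_posDef hB0 hp).posSemidef, trivial⟩
  have hP : ∀ i j, ContinuousOn
      (fun p : ℝ × Mat n × Vec n × Mat n => p.2.2.2 i j) (DX D B0 S ρ) := by
    intro i j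
    have hc : Continuous fun p : ℝ × Mat n × Vec n × Mat n => p.2.2.2 i j := by fun_prop
    exact hc.continuousOn
  unfold fP NN N3
  refine continuousOn_finsetSum _ fun a _ => continuousOn_finsetSum _ fun b _ =>
    continuousOn_finsetSum _ fun c _ => continuousOn_finsetSum _ fun a' _ =>
    continuousOn_finsetSum _ fun b' _ => continuousOn_finsetSum _ fun c' _ => ?_
  exact ((((hP a a').mul (hP b b')).mul (hP c c')).mul (hT a b c)).mul (hT a' b' c')

theorem gP_eq_cube (B : Mat n) (c : Vec n) (P : Mat n) :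
    gP F D B c P = (Sf F.p (D.A B c) B * P * (Sf F.p (D.A B c) B * P)
      * (Sf F.p (D.A B c) B * P)).trace := by
  unfold gP
  rw [pow_three']

theorem Sf_cont {B0 : Mat n} (hB0 : B0.PosDef) {S ρ : ℝ} :
    ContinuousOn (fun p : ℝ × Mat n × Vec n × Mat n => Sf F.p (D.A p.2.1 p.2.2.1) p.2.1)
      (DX D B0 S ρ) := by
  intro p hp
  have hB := DX_posDef hB0 hp
  have hc : Continuous fun p : ℝ × Mat n × Vec n × Mat n => (p.2.1, p.2.2.1) := by fun_prop
  have hA : Tendsto (fun p : ℝ × Mat n × Vec n × Mat n => D.A p.2.1 p.2.2.1)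
      (𝓝[DX D B0 S ρ] p) (𝓝 (D.A p.2.1 p.2.2.1)) := by
    refine tendsto_pi_nhds.2 fun i => tendsto_pi_nhds.2 fun j => ?_
    exact ((D.cA i j).comp hc.continuousOn
      fun p hp => ⟨(DX_posDef hB0 hp).posSemidef, trivial⟩) p hp
  have hBt : Tendsto (fun p : ℝ × Mat n × Vec n × Mat n => p.2.1) (𝓝[DX D B0 S ρ] p)
      (𝓝 p.2.1) := by
    have hc : Continuous fun p : ℝ × Mat n × Vec n × Mat n => p.2.1 := by fun_prop
    exact hc.continuousWithinAt
  obtain ⟨L, β, h, L₁, h₁⟩ := exists_SFr (F := F) (D := D) hB p.2.2.1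
  have hS := Sf_tendsto h₁ (A_symm' D _ _) hA hBt (f := F.p)
    (fun i => (F.d1 _ (h.mem i)).continuousAt) (by
      filter_upwards [self_mem_nhdsWithin] with q hq
      have hB' := DX_posDef hB0 hq
      exact ⟨A_symm' D _ _, exists_Fr (D.posA _ hB'.posSemidef _) hB'.isHermitian⟩)
  exact hS

theorem gP_cont {B0 : Mat n} (hB0 : B0.PosDef) {S ρ : ℝ} :
    ContinuousOn (fun p : ℝ × Mat n × Vec n × Mat n => gP F D p.2.1 p.2.2.1 p.2.2.2)
      (DX D B0 S ρ) := by
  have hP : ContinuousOn (fun p : ℝ × Mat n × Vec n × Mat n => p.2.2.2) (DX D B0 S ρ) := by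
    have hc : Continuous fun p : ℝ × Mat n × Vec n × Mat n => p.2.2.2 := by fun_prop
    exact hc.continuousOn
  have hM := (Sf_cont (F := F) (D := D) hB0 (S := S) (ρ := ρ)).mul hP
  have h3 := (hM.mul hM).mul hM
  have htr : Continuous fun M : Mat n => M.trace := continuous_id.matrix_trace
  have h4 := htr.comp_continuousOn h3
  refine h4.congr fun p _ => ?_
  exact gP_eq_cube _ _ _

end Vale.Agent.P254.X452
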