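import Vale.Agent.P254.H452.XDom

/-!
P254, maximum principle, existence of the last contact (helper452), for ABSTRACT functionals
`f`, `g` of `(B, c, P)`.
-/

namespace Vale.Agent.P254.X452

open Matrix Polynomial Filter Topology Asymptotics Set
open Vale.Agent.P254.L Vale.Agent.P254.S526 Vale.Agent.P254.Z546

variable {n : ℕ} {D : TiltData n}

/-- derivative of `1 + ε τ^{-N}` -/
theorem theta_jet (ε τ : ℝ) (hτ : 0 < τ) (N : ℕ) :
    J1 (𝓝[≥] 0) (fun t : ℝ => 1 + ε * ((τ * (1 + t)) ^ N)⁻¹) (1 + ε * (τ ^ N)⁻¹)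
      (-(N * (ε * (τ ^ N)⁻¹))) := by
  have h1 : HasDerivAt (fun t : ℝ => τ * (1 + t)) τ 0 := by
    have := ((hasDerivAt_id (0 : ℝ)).const_add 1).const_mul τ
    simpa using this
  have h2 : HasDerivAt (fun t : ℝ => (τ * (1 + t)) ^ N) (N * (τ * (1 + 0)) ^ (N - 1) * τ) 0 :=
    h1.fun_pow N
  have h3 : HasDerivAt (fun t : ℝ => 1 + ε * ((τ * (1 + t)) ^ N)⁻¹)
      (ε * (-(N * (τ * (1 + 0)) ^ (N - 1) * τ) / ((τ * (1 + 0)) ^ N) ^ 2)) 0 :=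
    ((h2.fun_inv (by simp only [add_zero, mul_one]; positivity)).const_mul ε).const_add 1
  have h4 := (J1.of_hasDerivAt h3).mono (l' := 𝓝[≥] 0) nhdsWithin_le_nhds
  refine h4.congr (Eventually.of_forall fun t => rfl) ?_ ?_
  · simp
  · simp only [add_zero, mul_one]
    rcases Nat.eq_zero_or_pos N with hN | hN
    · subst hN; simp
    · obtain ⟨k, rfl⟩ : ∃ k, N = k + 1 := ⟨N - 1, by omega⟩
      simp only [Nat.add_sub_cancel]
      have : τ ≠ 0 := hτ.ne'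
      field_simp
      ring

/-- the number `θ - 1` -/
theorem theta_bd {ε : ℝ} (hε0 : 0 < ε) (hε1 : ε ≤ 1) (N : ℕ) {τ : ℝ} (h : 1 ≤ τ) :
    0 < ε * (τ ^ N)⁻¹ ∧ ε * (τ ^ N)⁻¹ ≤ 1 := by
  have h1 : (1 : ℝ) ≤ τ ^ N := one_le_pow₀ h
  have h2 : (τ ^ N)⁻¹ ≤ 1 := inv_le_one_of_one_le₀ h1
  have h3 : 0 < (τ ^ N)⁻¹ := by positivity
  refine ⟨by positivity, ?_⟩
  calc ε * (τ ^ N)⁻¹ ≤ 1 * 1 := mul_le_mul hε1 h2 h3.le zero_le_one
    _ = 1 := one_mul 1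

/-- choice of `ε` -/
theorem exists_eps {f0 g0 : ℝ} (h : g0 < f0) :
    ∃ ε : ℝ, 0 < ε ∧ ε ≤ 1 ∧ (1 + ε) * g0 ≤ f0 := by
  refine ⟨min 1 ((f0 - g0) / (|g0| + 1)), ?_, min_le_left _ _, ?_⟩
  · refine lt_min one_pos (div_pos (by linarith) (by positivity))
  · have h1 : min 1 ((f0 - g0) / (|g0| + 1)) * g0 ≤ f0 - g0 := by
      calc min 1 ((f0 - g0) / (|g0| + 1)) * g0
          ≤ min 1 ((f0 - g0) / (|g0| + 1)) * |g0| := by
            refine mul_le_mul_of_nonneg_left (le_abs_self _) ?_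
            exact le_min zero_le_one (div_nonneg (by linarith) (by positivity))
        _ ≤ ((f0 - g0) / (|g0| + 1)) * |g0| :=
            mul_le_mul_of_nonneg_right (min_le_right _ _) (abs_nonneg _)
        _ ≤ ((f0 - g0) / (|g0| + 1)) * (|g0| + 1) :=
            mul_le_mul_of_nonneg_left (by linarith) (div_nonneg (by linarith) (by positivity))
        _ = f0 - g0 := by field_simp
    linarith

/-- the perturbed functional -/
noncomputable def phiF (f g : Mat n → Vec n → Mat n → ℝ) (ε : ℝ) (N : ℕ) (p : ℝ × Mat n × Vec n × Mat n) : ℝ :=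
  f p.2.1 p.2.2.1 p.2.2.2 - (1 + ε * (p.1 ^ N)⁻¹) * g p.2.1 p.2.2.1 p.2.2.2

/-- **Existence of the last bad point.** -/
theorem exists_last {f g : Mat n → Vec n → Mat n → ℝ} {B0 : Mat n} (hB0 : B0.PosDef) {S ρ : ℝ}
    (hfc : ContinuousOn (fun p : ℝ × Mat n × Vec n × Mat n => f p.2.1 p.2.2.1 p.2.2.2)
      (DX D B0 S ρ))
    (hgc : ContinuousOn (fun p : ℝ × Mat n × Vec n × Mat n => g p.2.1 p.2.2.1 p.2.2.2)
      (DX D B0 S ρ))
    {ε : ℝ} (N : ℕ) {c0 : Vec n} (hS1 : 1 ≤ S) (hc0 : ‖c0‖ ≤ ρ) {P0 : Mat n}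
    (hP0 : P0.PosSemidef) (hP1 : P0.trace = 1) (hε : (1 + ε) * g B0 c0 P0 ≤ f B0 c0 P0) :
    ∃ x ∈ DX D B0 S ρ, 0 ≤ phiF f g ε N x ∧
      ∀ y ∈ DX D B0 S ρ, x.1 < y.1 → phiF f g ε N y < 0 := by
  have hφc : ContinuousOn (phiF f g ε N) (DX D B0 S ρ) := by
    refine hfc.sub (ContinuousOn.mul ?_ hgc)
    refine continuousOn_const.add (continuousOn_const.mul ?_)
    refine ContinuousOn.inv₀ ?_ ?_
    · have : Continuous fun p : ℝ × Mat n × Vec n × Mat n => p.1 ^ N := by fun_prop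
      exact this.continuousOn
    · intro p hp
      have : 0 < p.1 := by linarith [hp.1.1]
      positivity
  have hKc : IsCompact (DX D B0 S ρ) := DX_compact hB0
  have hBc : IsCompact (DX D B0 S ρ ∩ phiF f g ε N ⁻¹' Ici 0) := hKc.of_isClosed_subset
    (hφc.preimage_isClosed_of_isClosed hKc.isClosed isClosed_Ici) inter_subset_left
  have hne : ((1 : ℝ), B0, c0, P0) ∈ DX D B0 S ρ ∩ phiF f g ε N ⁻¹' Ici 0 := by
    refine ⟨⟨⟨le_rfl, hS1⟩, ?_, ?_, hc0, hP0, hP1⟩, ?_⟩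
    · simpa using Matrix.PosSemidef.zero
    · simpa using Matrix.PosSemidef.zero
    · show 0 ≤ phiF f g ε N ((1 : ℝ), B0, c0, P0)
      unfold phiF
      simp only [one_pow, inv_one, mul_one]
      linarith
  obtain ⟨x, hmem, hmax⟩ := hBc.exists_isMaxOn ⟨_, hne⟩ continuous_fst.continuousOn
  refine ⟨x, hmem.1, hmem.2, fun y hy hlt => ?_⟩
  by_contra h
  push Not at h
  have : y.1 ≤ x.1 := hmax (show y ∈ DX D B0 S ρ ∩ phiF f g ε N ⁻¹' Ici 0 from ⟨hy, h⟩)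
  linarith

/-- the limit argument -/
theorem lim_le {f g : Mat n → Vec n → Mat n → ℝ} {B0 : Mat n} (hB0 : B0.PosDef) {S ρ : ℝ}
    (hfc : ContinuousOn (fun p : ℝ × Mat n × Vec n × Mat n => f p.2.1 p.2.2.1 p.2.2.2)
      (DX D B0 S ρ))
    (hgc : ContinuousOn (fun p : ℝ × Mat n × Vec n × Mat n => g p.2.1 p.2.2.1 p.2.2.2)
      (DX D B0 S ρ))
    {ε : ℝ} {N : ℕ} {τ : ℝ} {B : Mat n} {c : Vec n} {P : Mat n}
    (hD : (τ, B, c, P) ∈ DX D B0 S ρ) (hτS : τ < S)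
    (hnot : ∀ y ∈ DX D B0 S ρ, τ < y.1 → phiF f g ε N y < 0) :
    ∀ c' : Vec n, ‖c'‖ ≤ ρ → ∀ P' : Mat n, P'.PosSemidef → P'.trace = 1 →
      f B c' P' ≤ (1 + ε * (τ ^ N)⁻¹) * g B c' P' := by
  intro c' hc' P' hP' hP1'
  have hφc : ContinuousOn (phiF f g ε N) (DX D B0 S ρ) := by
    refine hfc.sub (ContinuousOn.mul ?_ hgc)
    refine continuousOn_const.add (continuousOn_const.mul ?_)
    refine ContinuousOn.inv₀ ?_ ?_
    · have : Continuous fun p : ℝ × Mat n × Vec n × Mat n => p.1 ^ N := by fun_prop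
      exact this.continuousOn
    · intro p hp
      have : 0 < p.1 := by linarith [hp.1.1]
      positivity
  have hmem' : (τ, B, c', P') ∈ DX D B0 S ρ := ⟨hD.1, hD.2.1, hD.2.2.1, hc', hP', hP1'⟩
  have hτ1 : 1 ≤ τ := hD.1.1
  have hev : ∀ᶠ t in 𝓝[>] (0 : ℝ), τ * (1 + t) < S := by
    have h1 : Tendsto (fun t : ℝ => τ * (1 + t)) (𝓝[>] 0) (𝓝 (τ * (1 + 0))) := by
      refine Tendsto.mono_left ?_ nhdsWithin_le_nhds
      apply Continuous.tendsto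
      fun_prop
    rw [add_zero, mul_one] at h1
    exact h1.eventually (gt_mem_nhds hτS)
  have hin : ∀ᶠ t in 𝓝[>] (0 : ℝ),
      (τ * (1 + t), B + t • (D.A B c')⁻¹, c', P') ∈ DX D B0 S ρ := by
    filter_upwards [hev, self_mem_nhdsWithin] with t ht1 ht2
    exact DX_step hB0 hD (le_of_lt ht2) ht1.le hc' hP' hP1'
  have ht : Tendsto (fun t : ℝ => (τ * (1 + t), B + t • (D.A B c')⁻¹, c', P'))
      (𝓝[>] 0) (𝓝[DX D B0 S ρ] (τ, B, c', P')) := by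
    refine tendsto_nhdsWithin_iff.2 ⟨?_, hin⟩
    have h1 : Continuous fun t : ℝ => (τ * (1 + t), B + t • (D.A B c')⁻¹, c', P') := by
      fun_prop
    have h2 := (h1.tendsto 0).mono_left (nhdsWithin_le_nhds (s := Ioi (0 : ℝ)))
    simpa using h2
  have h3 := (hφc _ hmem').tendsto.comp ht
  have h4 : phiF f g ε N (τ, B, c', P') ≤ 0 := by
    refine le_of_tendsto h3 ?_
    filter_upwards [hin, self_mem_nhdsWithin] with t ht1 ht2
    refine (hnot _ ht1 ?_).le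
    have : (0 : ℝ) < t := ht2
    show τ < τ * (1 + t)
    nlinarith
  have h5 : f B c' P' - (1 + ε * (τ ^ N)⁻¹) * g B c' P' ≤ 0 := h4
  linarith

/-- **Existence of the last contact**, abstract functionals, control `Q = A⁻¹`. -/
theorem exists_contact {f g : Mat n → Vec n → Mat n → ℝ} {B0 : Mat n} (hB0 : B0.PosDef)
    {S ρ : ℝ} (hS1 : 1 ≤ S)
    (hfc : ContinuousOn (fun p : ℝ × Mat n × Vec n × Mat n => f p.2.1 p.2.2.1 p.2.2.2)
      (DX D B0 S ρ))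
    (hgc : ContinuousOn (fun p : ℝ × Mat n × Vec n × Mat n => g p.2.1 p.2.2.1 p.2.2.2)
      (DX D B0 S ρ))
    (hg0 : ∀ p ∈ DX D B0 S ρ, 0 ≤ g p.2.1 p.2.2.1 p.2.2.2)
    (htop : ∀ p ∈ DX D B0 S ρ, p.1 = S → f p.2.1 p.2.2.1 p.2.2.2 < g p.2.1 p.2.2.1 p.2.2.2)
    (hside : ∀ p ∈ DX D B0 S ρ, ‖p.2.2.1‖ = ρ →
      f p.2.1 p.2.2.1 p.2.2.2 < g p.2.1 p.2.2.1 p.2.2.2)
    {c0 : Vec n} (hc0 : ‖c0‖ ≤ ρ) {P0 : Mat n}
    (hP0 : P0.PosSemidef) (hP1 : P0.trace = 1) (hlt : g B0 c0 P0 < f B0 c0 P0) (N : ℕ) :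
    ∃ (e τ : ℝ) (B : Mat n) (c : Vec n) (P : Mat n), 0 < e ∧ e ≤ 1 ∧ (τ, B, c, P) ∈ DX D B0 S ρ ∧
      (∀ᶠ c' in 𝓝 c, ∀ P' : Mat n, P'.PosSemidef → P'.trace = 1 →
        f B c' P' ≤ (1 + e) * g B c' P') ∧
      f B c P = (1 + e) * g B c P ∧
      ∃ ϑ : ℝ → ℝ, J1 (𝓝[≥] 0) ϑ (1 + e) (-(N * e)) ∧
        ∀ᶠ t in 𝓝[≥] (0 : ℝ),
          f (B + t • (D.A B c)⁻¹) (c + t • ((D.A B c)⁻¹ *ᵥ D.mu B c)) P
            ≤ ϑ t * g (B + t • (D.A B c)⁻¹) (c + t • ((D.A B c)⁻¹ *ᵥ D.mu B c)) P := by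
  obtain ⟨ε, hε0, hε1, hε⟩ := exists_eps hlt
  obtain ⟨⟨τ, B, c, P⟩, hD, hφ0, hnot⟩ := exists_last (D := D) hB0 hfc hgc N hS1 hc0 hP0 hP1 hε
  have hτ1 : 1 ≤ τ := hD.1.1
  have hτ0 : 0 < τ := by linarith
  have hPp : P.PosSemidef := hD.2.2.2.2.1
  have hPt : P.trace = 1 := hD.2.2.2.2.2
  have hstrict : ∀ x ∈ DX D B0 S ρ,
      f x.2.1 x.2.2.1 x.2.2.2 < g x.2.1 x.2.2.1 x.2.2.2 → phiF f g ε N x < 0 := by
    intro x hx hlt
    have h1 := (theta_bd hε0 hε1 N hx.1.1).1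
    have h2 := hg0 x hx
    unfold phiF
    nlinarith [mul_nonneg h1.le h2]
  have hτS : τ < S := by
    rcases hD.1.2.lt_or_eq with h | h
    · exact h
    · exact absurd hφ0 (not_le.2 (hstrict _ hD (htop _ hD h)))
  have hcρ : ‖c‖ < ρ := by
    rcases hD.2.2.2.1.lt_or_eq with h | h
    · exact h
    · exact absurd hφ0 (not_le.2 (hstrict _ hD (hside _ hD h)))
  have hle := lim_le (D := D) hB0 hfc hgc hD hτS hnot
  have hθ := theta_bd hε0 hε1 N hτ1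
  have heq : f B c P = (1 + ε * (τ ^ N)⁻¹) * g B c P := by
    have h1 := hle c hcρ.le P hPp hPt
    have h2 : 0 ≤ f B c P - (1 + ε * (τ ^ N)⁻¹) * g B c P := hφ0
    linarith
  refine ⟨ε * (τ ^ N)⁻¹, τ, B, c, P, hθ.1, hθ.2, hD, ?_, heq,
    fun t : ℝ => 1 + ε * ((τ * (1 + t)) ^ N)⁻¹, theta_jet ε τ hτ0 N, ?_⟩
  · have h1 : ∀ᶠ c' in 𝓝 c, ‖c'‖ < ρ := (continuous_norm.tendsto c).eventually (gt_mem_nhds hcρ)
    filter_upwards [h1] with c' hc'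
    exact hle c' hc'.le
  · have h1 : Tendsto (fun t : ℝ => ‖c + t • ((D.A B c)⁻¹ *ᵥ D.mu B c)‖) (𝓝[≥] 0)
        (𝓝 ‖c + (0 : ℝ) • ((D.A B c)⁻¹ *ᵥ D.mu B c)‖) := by
      refine Tendsto.mono_left ?_ nhdsWithin_le_nhds
      apply Continuous.tendsto
      fun_prop
    rw [zero_smul, add_zero] at h1
    have hev : ∀ᶠ t in 𝓝[≥] (0 : ℝ), τ * (1 + t) < S := by
      have h1 : Tendsto (fun t : ℝ => τ * (1 + t)) (𝓝[≥] 0) (𝓝 (τ * (1 + 0))) := by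
        refine Tendsto.mono_left ?_ nhdsWithin_le_nhds
        apply Continuous.tendsto
        fun_prop
      rw [add_zero, mul_one] at h1
      exact h1.eventually (gt_mem_nhds hτS)
    filter_upwards [h1.eventually (gt_mem_nhds hcρ), hev, self_mem_nhdsWithin] with t ht1 ht2 ht3
    have ht3' : (0 : ℝ) ≤ t := ht3
    rcases ht3'.eq_or_lt with h0 | h0
    · subst h0
      simp only [zero_smul, add_zero, mul_one]
      exact heq.le
    · have hin := DX_step hB0 hD ht3' ht2.le ht1.le hPp hPt (c := c)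
      have h5 := hnot _ hin (by
        show τ < τ * (1 + t)
        nlinarith)
      have h6 : f (B + t • (D.A B c)⁻¹) (c + t • ((D.A B c)⁻¹ *ᵥ D.mu B c)) P
        - (1 + ε * ((τ * (1 + t)) ^ N)⁻¹)
          * g (B + t • (D.A B c)⁻¹) (c + t • ((D.A B c)⁻¹ *ᵥ D.mu B c)) P < 0 := h5
      linarith

end Vale.Agent.P254.X452
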