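import Vale.Agent.P254.H452.XCont

/-!
P254, maximum principle block (X), part 4 (helper452): the differential inequality at a contact.
-/

namespace Vale.Agent.P254.X452

open Matrix Polynomial Filter Topology Asymptotics Set
open Vale.Agent.P254.L Vale.Agent.P254.S526 Vale.Agent.P254.Z546

variable {n : ℕ} {F : Profile} {D : TiltData n}

/-! ### cubes of positive semidefinite matrices -/

theorem cube_psd {P : Mat n} (hP : P.PosSemidef) : (P * P * P).PosSemidef := by
  have h := hP.mul_mul_conjTranspose_same P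
  rwa [hP.isHermitian.eq] at h

theorem cube_trace_pos {P : Mat n} (hP : P.PosSemidef) (h0 : P ≠ 0) : 0 < (P * P * P).trace := by
  have h1 := (cube_psd hP).trace_nonneg
  refine lt_of_le_of_ne h1 fun h2 => h0 ?_
  have h3 : P * P * P = 0 := (cube_psd hP).trace_eq_zero_iff.1 h2.symm
  have hH : Pᴴ = P := hP.isHermitian.eq
  have h4 : (P * P)ᴴ * (P * P) = 0 := by
    rw [Matrix.conjTranspose_mul, hH, ← Matrix.mul_assoc, h3, Matrix.zero_mul]
  have h5 : P * P = 0 := Matrix.conjTranspose_mul_self_eq_zero.1 h4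
  have h6 : Pᴴ * P = 0 := by rw [hH, h5]
  exact Matrix.conjTranspose_mul_self_eq_zero.1 h6

/-! ### the standard control -/

theorem AQT_std {b : Vec n} (hb : ∀ i, b i ∈ Ioo (0 : ℝ) 1) (T : Ten n) :
    AQT F b T (Matrix.diagonal fun i => F.p (b i)) = T := by
  funext i j k
  unfold AQT
  have hp := (F.pos _ (hb i)).ne'
  rw [Finset.sum_eq_single i]
  · rw [Matrix.diagonal_apply_eq]; field_simp
  · intro l _ hl
    rw [Matrix.diagonal_apply_ne _ (Ne.symm hl)]; ring
  · intro h; exact absurd (Finset.mem_univ i) h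

theorem sum_diag (p : Vec n) (f : Fin n → Fin n → ℝ) :
    ∑ a, ∑ a', (Matrix.diagonal p : Mat n) a a' * f a a' = ∑ a, p a * f a a := by
  refine Finset.sum_congr rfl fun a _ => ?_
  rw [Finset.sum_eq_single a]
  · rw [Matrix.diagonal_apply_eq]
  · intro l _ hl
    rw [Matrix.diagonal_apply_ne _ (Ne.symm hl), zero_mul]
  · intro h; exact absurd (Finset.mem_univ a) h

theorem Sflow_std {b : Vec n} (hb : ∀ i, b i ∈ Ioo (0 : ℝ) 1) :
    Sflow F b (Matrix.diagonal fun i => F.p (b i))
      = Matrix.diagonal fun i => (- F.p (b i) + (1 - b i) * F.p1 (b i)) / F.p (b i) := by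
  ext i j
  unfold Sflow
  rw [Matrix.of_apply]
  rcases eq_or_ne i j with h | h
  · subst h
    have hp := (F.pos _ (hb i)).ne'
    simp only [Matrix.diagonal_apply_eq, dd1, if_true]
    field_simp
  · rw [Matrix.diagonal_apply_ne _ h, Matrix.diagonal_apply_ne _ h]; ring

theorem Sflow_trace_ge {b : Vec n} (hb : ∀ i, b i ∈ Ioo (0 : ℝ) 1) {C : ℝ}
    (hC : ∀ i, -C ≤ (- F.p (b i) + (1 - b i) * F.p1 (b i)) / F.p (b i)) {P : Mat n}
    (hP : P.PosSemidef) :
    -C * (P * P * P).trace
      ≤ (Sflow F b (Matrix.diagonal fun i => F.p (b i)) * (P * P * P)).trace := by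
  rw [Sflow_std hb]
  generalize hR : P * P * P = R
  have hRp : R.PosSemidef := hR ▸ cube_psd hP
  simp only [Matrix.trace, Matrix.diag_apply, Matrix.diagonal_mul, Finset.mul_sum]
  refine Finset.sum_le_sum fun i _ => ?_
  exact mul_le_mul_of_nonneg_right (hC i) hRp.diag_nonneg

/-! ### the contact -/

/-- the rescaled third cumulant -/
noncomputable def Th (D : TiltData n) (B : Mat n) (c : Vec n) (L : Mat n) (s : ℝ) : Ten n :=
  fun i j k => s⁻¹ * frT L (D.T B c) i j k

/-- the rescaled fourth cumulant -/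
noncomputable def Kh (D : TiltData n) (B : Mat n) (c : Vec n) (L : Mat n) (s : ℝ) :
    Fin n → Ten n := fun a i j k => (s ^ 2)⁻¹ * fr4 L (D.K B c) a i j k

theorem frT_eq_Th {B : Mat n} {c : Vec n} {L : Mat n} {s : ℝ} (hs : s ≠ 0) :
    frT L (D.T B c) = fun i j k => s * Th D B c L s i j k := by
  funext i j k
  unfold Th
  field_simp

theorem fr4_eq_Kh {B : Mat n} {c : Vec n} {L : Mat n} {s : ℝ} (hs : s ≠ 0) (a : Fin n) :
    fr4 L (D.K B c) a = fun i j k => s ^ 2 * Kh D B c L s a i j k := by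
  funext i j k
  unfold Kh
  field_simp

theorem NN_smul (P : Mat n) (T T' : Ten n) (x y : ℝ) :
    NN P (fun i j k => x * T i j k) (fun i j k => y * T' i j k) = x * y * NN P T T' :=
  N3_smul P P P T T' x y

theorem gP_zero {B : Mat n} {c : Vec n} {L : Mat n} {β : Vec n}
    (h : SFr F (D.A B c) B L β) (P : Mat n) :
    gP F D B c (Lᵀ * P * L) = (P * P * P).trace := by
  rw [gP_frame, h.Sf_one (A_symm' D B c), Matrix.one_mul, pow_three']

theorem contact_of {B : Mat n} (hB : B.PosDef) {c : Vec n} {L : Mat n} {β : Vec n}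
    (h : SFr F (D.A B c) B L β) {s : ℝ} (hs : 0 < s) {P : Mat n} (hP : P.PosSemidef)
    (hP0 : P ≠ 0)
    (hle : ∀ a : Fin n, ∀ᶠ t in 𝓝 (0 : ℝ), ∀ P' : Mat n, P'.PosSemidef →
      fP D B (c + t • dir L a) P' ≤ s ^ 2 * gP F D B (c + t • dir L a) P')
    (hle0 : ∀ P' : Mat n, P'.PosSemidef → fP D B c P' ≤ s ^ 2 * gP F D B c P')
    (heq : fP D B c (Lᵀ * P * L) = s ^ 2 * gP F D B c (Lᵀ * P * L)) :
    Contact F β (Th D B c L s) P (Kh D B c L s) := by
  have hs0 := hs.ne'
  have hPs : Pᵀ = P := by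
    have := hP.isHermitian.eq
    rwa [Matrix.conjTranspose_eq_transpose_of_trivial] at this
  have hsT : TSymm (frT L (D.T B c)) := frT_symm L (D.T_symm B c)
  have hKs := fr4_symm L (D.K_symm1 B c) (D.K_symm2 B c) (D.K_symm3 B c)
  have hL : ∀ P' : Mat n, P'.PosSemidef → (Lᵀ * P' * L).PosSemidef := fun P' h' =>
    (psd_conj_iff h.unit).2 h'
  have hNN : ∀ P' : Mat n, NN P' (frT L (D.T B c)) (frT L (D.T B c))
      = s ^ 2 * NN P' (Th D B c L s) (Th D B c L s) := by
    intro P'
    rw [frT_eq_Th (D := D) (B := B) (c := c) (L := L) hs0, NN_smul]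
    ring
  refine ⟨h.mem, ?_, ?_, hP, hP0, ?_, ?_, ?_⟩
  · exact ⟨fun i j k => by unfold Th; rw [hsT.1], fun i j k => by unfold Th; rw [hsT.2]⟩
  · exact ⟨fun i j k l => by unfold Kh; rw [hKs.1], fun i j k l => by unfold Kh; rw [hKs.2.1],
      fun i j k l => by unfold Kh; rw [hKs.2.2]⟩
  · intro P' hP'
    have h1 := hle0 _ (hL P' hP')
    rw [fP_frame, gP_zero h, hNN] at h1
    have : 0 < s ^ 2 := by positivity
    exact le_of_mul_le_mul_left h1 this
  · have h1 := heq
    rw [fP_frame, gP_zero h, hNN] at h1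
    have : s ^ 2 ≠ 0 := by positivity
    exact mul_left_cancel₀ this h1
  · intro a
    have hj := jet_c hB h (s ^ 2) hPs (X := 0) (by simp) a
    have h1 : NN P (frT L (D.T B c)) (frT L (D.T B c)) - s ^ 2 * (P * P * P).trace = 0 := by
      have h2 := heq
      rw [fP_frame, gP_zero h] at h2
      linarith
    have h3 := (hj.le_test (by
      filter_upwards [hle a] with t ht
      rw [h1]
      have h4 := ht (Lᵀ * (P + t • (0 : Mat n)) * L) (by
        rw [smul_zero, add_zero]; exact hL P hP)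
      linarith)).1
    have h5 : N3 (0 : Mat n) P P (frT L (D.T B c)) (frT L (D.T B c)) = 0 := by
      unfold N3; simp
    rw [h5, Matrix.zero_mul, Matrix.trace_zero] at h3
    have e1 : NN P (fr4 L (D.K B c) a) (frT L (D.T B c))
        = s ^ 3 * NN P (Kh D B c L s a) (Th D B c L s) := by
      rw [frT_eq_Th (D := D) (B := B) (c := c) (L := L) hs0,
        fr4_eq_Kh (D := D) (B := B) (c := c) (L := L) hs0, NN_smul]
      ring
    have e2 : Sd F β (frT L (D.T B c)) a = s • Sd F β (Th D B c L s) a := by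
      rw [frT_eq_Th (D := D) (B := B) (c := c) (L := L) hs0, Sd_smul]
    rw [e1, e2, Matrix.smul_mul, Matrix.trace_smul, smul_eq_mul] at h3
    have h6 : s ^ 3 * (2 * NN P (Kh D B c L s a) (Th D B c L s))
        = s ^ 3 * (3 * (Sd F β (Th D B c L s) a * (P * P * P)).trace) := by
      linarith
    have : s ^ 3 ≠ 0 := by positivity
    exact mul_left_cancel₀ this h6

/-- **The differential inequality at a contact.** -/
theorem contact_ineq (hALG : ALGstd F) {B : Mat n} (hB : B.PosDef) {c : Vec n} {L : Mat n}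
    {β : Vec n} (h : SFr F (D.A B c) B L β) {s θ1 : ℝ} (hs : 0 < s) {P : Mat n}
    (hP : P.PosSemidef) (hP0 : P ≠ 0)
    (hle : ∀ a : Fin n, ∀ᶠ t in 𝓝 (0 : ℝ), ∀ P' : Mat n, P'.PosSemidef →
      fP D B (c + t • dir L a) P' ≤ s ^ 2 * gP F D B (c + t • dir L a) P')
    (hle0 : ∀ P' : Mat n, P'.PosSemidef → fP D B c P' ≤ s ^ 2 * gP F D B c P')
    (heq : fP D B c (Lᵀ * P * L) = s ^ 2 * gP F D B c (Lᵀ * P * L))
    {ϑ : ℝ → ℝ} (hϑ : J1 (𝓝[≥] 0) ϑ (s ^ 2) θ1)
    (hfl : ∀ᶠ t in 𝓝[≥] (0 : ℝ),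
      fP D (B + t • (D.A B c)⁻¹) (c + t • ((D.A B c)⁻¹ *ᵥ D.mu B c)) (Lᵀ * P * L)
        ≤ ϑ t * gP F D (B + t • (D.A B c)⁻¹) (c + t • ((D.A B c)⁻¹ *ᵥ D.mu B c))
          (Lᵀ * P * L)) :
    (s ^ 2 * s ^ 2 - s ^ 2) * (6 * (P * P * P).trace
        + 3 * (Sflow F β (Matrix.diagonal fun i => F.p (β i)) * (P * P * P)).trace)
      - θ1 * (P * P * P).trace ≤ 0 := by
  have hs0 := hs.ne'
  have hPs : Pᵀ = P := by
    have := hP.isHermitian.eq
    rwa [Matrix.conjTranspose_eq_transpose_of_trivial] at this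
  have hL : ∀ P' : Mat n, P'.PosSemidef → (Lᵀ * P' * L).PosSemidef := fun P' h' =>
    (psd_conj_iff h.unit).2 h'
  have hC := contact_of hB h hs hP hP0 hle hle0 heq
  obtain ⟨X, hX, hdr⟩ := hALG n β _ P _ hC
  have h1 : NN P (frT L (D.T B c)) (frT L (D.T B c)) - s ^ 2 * (P * P * P).trace = 0 := by
    have h2 := heq
    rw [fP_frame, gP_zero h] at h2
    linarith
  -- second order test
  have h2 : ∀ a, c2 F D B c L β (s ^ 2) P (s • X a) a ≤ 0 := by
    intro a
    obtain ⟨hXs, C, hC1, hC2⟩ := hX a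
    have hXs' : (s • X a)ᵀ = s • X a := by rw [Matrix.transpose_smul, hXs.eq]
    have hj := jet_c hB h (s ^ 2) hPs hXs' a
    refine (hj.le_test ?_).2
    -- positivity of `P + t s X`
    have hpos : ∀ᶠ t in 𝓝 (0 : ℝ), (P + t • (s • X a)).PosSemidef := by
      have hc : Tendsto (fun t : ℝ => |t| * (s * |C|)) (𝓝 0) (𝓝 (|0| * (s * |C|))) := by
        apply Continuous.tendsto
        fun_prop
      rw [abs_zero, zero_mul] at hc
      filter_upwards [hc.eventually (gt_mem_nhds zero_lt_one)] with t ht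
      have hCC : |t| * s * C ≤ 1 := by
        have : |t| * s * C ≤ |t| * (s * |C|) := by
          rw [mul_assoc]
          exact mul_le_mul_of_nonneg_left (mul_le_mul_of_nonneg_left (le_abs_self C) hs.le)
            (abs_nonneg t)
        linarith
      have hp1 : ((1 - |t| * s * C) • P).PosSemidef := hP.smul (by linarith)
      rcases le_total 0 t with ht0 | ht0
      · have hp2 := hp1.add (hC2.smul (show (0 : ℝ) ≤ |t| * s by positivity))
        refine cast (congrArg Matrix.PosSemidef ?_) hp2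
        rw [abs_of_nonneg ht0]
        ext i j
        simp only [Matrix.add_apply, Matrix.smul_apply, smul_eq_mul]
        ring
      · have hp2 := hp1.add (hC1.smul (show (0 : ℝ) ≤ |t| * s by positivity))
        refine cast (congrArg Matrix.PosSemidef ?_) hp2
        rw [abs_of_nonpos ht0]
        ext i j
        simp only [Matrix.add_apply, Matrix.smul_apply, Matrix.sub_apply, smul_eq_mul]
        ring
    filter_upwards [hpos, hle a] with t ht1 ht2
    rw [h1]
    have h4 := ht2 _ (hL _ ht1)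
    linarith
  -- first order test along the flow
  have h3 := (jet_f hB h (s ^ 2) θ1 hPs hϑ).le_test (by
    filter_upwards [hfl] with t ht
    rw [h1]
    linarith)
  have h4 : ∑ a, F.p (β a) * c2 F D B c L β (s ^ 2) P (s • X a) a ≤ 0 :=
    Finset.sum_nonpos fun a _ =>
      mul_nonpos_of_nonneg_of_nonpos (h.ppos a).le (h2 a)
  -- drift
  have hNN : NN P (frT L (D.T B c)) (frT L (D.T B c))
      = s ^ 2 * NN P (Th D B c L s) (Th D B c L s) := by
    rw [frT_eq_Th (D := D) (B := B) (c := c) (L := L) hs0, NN_smul]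
    ring
  have hCeq := hC.eq
  have hdrift : drift F β (Th D B c L s) P (Kh D B c L s)
        (Matrix.diagonal fun i => F.p (β i)) X
      = - 6 * (P * P * P).trace
        + ∑ a, F.p (β a) * (NN P (Kh D B c L s a) (Kh D B c L s a)
          + 6 * N3 (X a) P P (Kh D B c L s a) (Th D B c L s)
          + 3 * N3 (X a) (X a) P (Th D B c L s) (Th D B c L s))
        - (3 * (Sflow F β (Matrix.diagonal fun i => F.p (β i)) * (P * P * P)).trace
          + ∑ a, F.p (β a) * (3 * (Gam F β (Th D B c L s) a a * (P * P * P)).trace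
            + 3 * (Sd F β (Th D B c L s) a * P * Sd F β (Th D B c L s) a * (P * P)).trace
            + 3 * (X a * (Sd F β (Th D B c L s) a * (P * P) + P * Sd F β (Th D B c L s) a * P
              + P * P * Sd F β (Th D B c L s) a)).trace
            + 3 * (X a * X a * P).trace)) := by
    unfold drift
    rw [AQT_std h.mem, sum_diag (fun i => F.p (β i)) (fun a a' =>
        NN P (Kh D B c L s a) (Kh D B c L s a')
          + 6 * N3 (X a) P P (Kh D B c L s a') (Th D B c L s)
          + 3 * N3 (X a) (X a') P (Th D B c L s) (Th D B c L s)),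
      sum_diag (fun i => F.p (β i)) (fun a a' =>
        3 * (Gam F β (Th D B c L s) a a' * (P * P * P)).trace
            + 3 * (Sd F β (Th D B c L s) a * P * Sd F β (Th D B c L s) a' * (P * P)).trace
            + 3 * (X a * (Sd F β (Th D B c L s) a' * (P * P) + P * Sd F β (Th D B c L s) a' * P
              + P * P * Sd F β (Th D B c L s) a')).trace
            + 3 * (X a * X a' * P).trace), hCeq]
  rw [hdrift] at hdr
  -- scaling of `c2`
  have hc2 : ∀ a, c2 F D B c L β (s ^ 2) P (s • X a) a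
      = NN P (fr5 L (D.R B c) a) (frT L (D.T B c))
        - s ^ 2 * (3 / 2 * (hK F D B c L β a * (P * P * P)).trace)
        + s ^ 2 * s ^ 2 * ((NN P (Kh D B c L s a) (Kh D B c L s a)
          + 6 * N3 (X a) P P (Kh D B c L s a) (Th D B c L s)
          + 3 * N3 (X a) (X a) P (Th D B c L s) (Th D B c L s))
          - (3 * (Gam F β (Th D B c L s) a a * (P * P * P)).trace
            + 3 * (Sd F β (Th D B c L s) a * P * Sd F β (Th D B c L s) a * (P * P)).trace
            + 3 * (X a * (Sd F β (Th D B c L s) a * (P * P) + P * Sd F β (Th D B c L s) a * P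
              + P * P * Sd F β (Th D B c L s) a)).trace
            + 3 * (X a * X a * P).trace)) := by
    intro a
    have e1 : NN P (fr4 L (D.K B c) a) (fr4 L (D.K B c) a)
        = s ^ 2 * s ^ 2 * NN P (Kh D B c L s a) (Kh D B c L s a) := by
      rw [fr4_eq_Kh (D := D) (B := B) (c := c) (L := L) hs0, NN_smul]
    have e2 : N3 (s • X a) P P (fr4 L (D.K B c) a) (frT L (D.T B c))
        = s ^ 2 * s ^ 2 * N3 (X a) P P (Kh D B c L s a) (Th D B c L s) := by
      rw [N3_smul1, frT_eq_Th (D := D) (B := B) (c := c) (L := L) hs0,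
        fr4_eq_Kh (D := D) (B := B) (c := c) (L := L) hs0, N3_smul]
      ring
    have e3 : N3 (s • X a) (s • X a) P (frT L (D.T B c)) (frT L (D.T B c))
        = s ^ 2 * s ^ 2 * N3 (X a) (X a) P (Th D B c L s) (Th D B c L s) := by
      rw [N3_smul12, frT_eq_Th (D := D) (B := B) (c := c) (L := L) hs0, N3_smul]
      ring
    have e4 : Sd F β (frT L (D.T B c)) a = s • Sd F β (Th D B c L s) a := by
      rw [frT_eq_Th (D := D) (B := B) (c := c) (L := L) hs0, Sd_smul]
    have e5 : Gam F β (frT L (D.T B c)) a a = s ^ 2 • Gam F β (Th D B c L s) a a := by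
      rw [frT_eq_Th (D := D) (B := B) (c := c) (L := L) hs0, Gam_smul]
    unfold c2
    rw [e1, e2, e3, e4, e5]
    simp only [Matrix.smul_mul, Matrix.mul_smul, ← smul_add, Matrix.trace_smul, smul_eq_mul]
    ring
  have h5 : ∑ a, F.p (β a) * c2 F D B c L β (s ^ 2) P (s • X a) a
      = ∑ a, F.p (β a) * NN P (fr5 L (D.R B c) a) (frT L (D.T B c))
        - s ^ 2 * ∑ a, F.p (β a) * (3 / 2 * (hK F D B c L β a * (P * P * P)).trace)
        + s ^ 2 * s ^ 2 * (∑ a, F.p (β a) * (NN P (Kh D B c L s a) (Kh D B c L s a)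
          + 6 * N3 (X a) P P (Kh D B c L s a) (Th D B c L s)
          + 3 * N3 (X a) (X a) P (Th D B c L s) (Th D B c L s))
          - ∑ a, F.p (β a) * (3 * (Gam F β (Th D B c L s) a a * (P * P * P)).trace
            + 3 * (Sd F β (Th D B c L s) a * P * Sd F β (Th D B c L s) a * (P * P)).trace
            + 3 * (X a * (Sd F β (Th D B c L s) a * (P * P) + P * Sd F β (Th D B c L s) a * P
              + P * P * Sd F β (Th D B c L s) a)).trace
            + 3 * (X a * X a * P).trace)) := by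
    rw [Finset.mul_sum Finset.univ _ (s ^ 2), mul_sub, Finset.mul_sum Finset.univ _ (s ^ 2 * s ^ 2),
      Finset.mul_sum Finset.univ _ (s ^ 2 * s ^ 2), ← Finset.sum_sub_distrib,
      ← Finset.sum_sub_distrib, ← Finset.sum_add_distrib]
    refine Finset.sum_congr rfl fun a _ => ?_
    rw [hc2]
    ring
  rw [h5] at h4
  rw [hNN, hCeq] at h3
  have h6 : 0 ≤ s ^ 2 * s ^ 2 := by positivity
  have h7 := mul_nonneg h6 hdr
  nlinarith [h7, h3, h4]

end Vale.Agent.P254.X452
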