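import Vale.Agent.P254.Bdl.B3

/-!
P254, maximum principle block (X), part 1 (helper452): the frame in which `S(A,B) = 1` and the
jets of `S` in it.
-/

namespace Vale.Agent.P254.X452

open Matrix Polynomial Filter Topology Asymptotics Set
open Vale.Agent.P254.L Vale.Agent.P254.S526 Vale.Agent.P254.Z546

variable {n : ℕ}

/-- frame in which `S = A p(BA)` is the identity -/
structure SFr (F : Profile) (A B L : Mat n) (β : Vec n) : Prop where
  unit : IsUnit L
  hA : L * A * Lᵀ = Matrix.diagonal fun i => 1 / F.p (β i)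
  hB : B = Lᵀ * Matrix.diagonal (fun i => F.h (β i)) * L
  mem : ∀ i, β i ∈ Ioo (0 : ℝ) 1

theorem sc1 {s p : ℝ} (hs : 0 < s) (h : s * s = p) : 1 / s * (1 / s) = 1 / p := by
  subst h; field_simp

theorem sc2 {s p β : ℝ} (hs : 0 < s) (h : s * s = p) : β = 1 / s * (β * p) * (1 / s) := by
  subst h; field_simp

theorem sc3 {s p : ℝ} (hs : 0 < s) (h : s * s = p) : s * (1 / p) * s = 1 := by
  subst h; field_simp

theorem sc4 {s p β : ℝ} (h : s * s = p) : β * p = s * β * s := by
  subst h; ring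

theorem sc5 {s p : ℝ} (hs : 0 < s) (h : s * s = p) : s * (1 / p) = 1 / s := by
  subst h; field_simp

theorem sc6 {s p : ℝ} (hs : 0 < s) (h : s * s = p) : 1 / s * p * (1 / s) = 1 := by
  subst h; field_simp

variable {F : Profile}

theorem SFr.ppos {A B L : Mat n} {β : Vec n} (h : SFr F A B L β) (i : Fin n) : 0 < F.p (β i) :=
  F.pos _ (h.mem i)

theorem SFr.of_Fr {A B L : Mat n} {β : Vec n} (h : Fr A B L β) (hβ : ∀ i, β i ∈ Ioo (0 : ℝ) 1) :
    SFr F A B (Matrix.diagonal (fun i => 1 / Real.sqrt (F.p (β i))) * L) β := by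
  have hp : ∀ i, 0 < F.p (β i) := fun i => F.pos _ (hβ i)
  have hs : ∀ i, 0 < Real.sqrt (F.p (β i)) := fun i => Real.sqrt_pos.2 (hp i)
  have hss : ∀ i, Real.sqrt (F.p (β i)) * Real.sqrt (F.p (β i)) = F.p (β i) := fun i =>
    Real.mul_self_sqrt (hp i).le
  refine ⟨?_, ?_, ?_, hβ⟩
  · refine IsUnit.mul ?_ h.isUnit
    rw [Matrix.isUnit_iff_isUnit_det, Matrix.det_diagonal, isUnit_iff_ne_zero,
      Finset.prod_ne_zero_iff]
    intro i _
    exact (one_div_pos.2 (hs i)).ne'
  · rw [Matrix.transpose_mul, Matrix.diagonal_transpose]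
    calc Matrix.diagonal (fun i => 1 / Real.sqrt (F.p (β i))) * L * A *
          (Lᵀ * Matrix.diagonal fun i => 1 / Real.sqrt (F.p (β i)))
        = Matrix.diagonal (fun i => 1 / Real.sqrt (F.p (β i))) * (L * A * Lᵀ) *
          Matrix.diagonal (fun i => 1 / Real.sqrt (F.p (β i))) := by
          simp only [Matrix.mul_assoc]
      _ = _ := by
          rw [h.hA, Matrix.mul_one, Matrix.diagonal_mul_diagonal]
          congr 1
          funext i
          exact sc1 (hs i) (hss i)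
  · rw [Matrix.transpose_mul, Matrix.diagonal_transpose]
    conv_lhs => rw [h.hB]
    have e : (Matrix.diagonal β : Mat n) = Matrix.diagonal (fun i => 1 / Real.sqrt (F.p (β i))) *
        Matrix.diagonal (fun i => F.h (β i)) *
        Matrix.diagonal (fun i => 1 / Real.sqrt (F.p (β i))) := by
      rw [Matrix.diagonal_mul_diagonal, Matrix.diagonal_mul_diagonal]
      congr 1
      funext i
      exact sc2 (hs i) (hss i)
    rw [e]
    simp only [Matrix.mul_assoc]

theorem SFr.toFr {A B L : Mat n} {β : Vec n} (h : SFr F A B L β) :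
    Fr A B (Matrix.diagonal (fun i => Real.sqrt (F.p (β i))) * L) β := by
  have hp : ∀ i, 0 < F.p (β i) := fun i => h.ppos i
  have hs : ∀ i, 0 < Real.sqrt (F.p (β i)) := fun i => Real.sqrt_pos.2 (hp i)
  have hss : ∀ i, Real.sqrt (F.p (β i)) * Real.sqrt (F.p (β i)) = F.p (β i) := fun i =>
    Real.mul_self_sqrt (hp i).le
  constructor
  · rw [Matrix.transpose_mul, Matrix.diagonal_transpose]
    calc Matrix.diagonal (fun i => Real.sqrt (F.p (β i))) * L * A *
          (Lᵀ * Matrix.diagonal fun i => Real.sqrt (F.p (β i)))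
        = Matrix.diagonal (fun i => Real.sqrt (F.p (β i))) * (L * A * Lᵀ) *
          Matrix.diagonal (fun i => Real.sqrt (F.p (β i))) := by
          simp only [Matrix.mul_assoc]
      _ = _ := by
          rw [h.hA, Matrix.diagonal_mul_diagonal, Matrix.diagonal_mul_diagonal,
            ← Matrix.diagonal_one]
          congr 1
          funext i
          exact sc3 (hs i) (hss i)
  · rw [Matrix.transpose_mul, Matrix.diagonal_transpose]
    conv_lhs => rw [h.hB]
    have e : (Matrix.diagonal (fun i => F.h (β i)) : Mat n)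
        = Matrix.diagonal (fun i => Real.sqrt (F.p (β i))) * Matrix.diagonal β *
        Matrix.diagonal (fun i => Real.sqrt (F.p (β i))) := by
      rw [Matrix.diagonal_mul_diagonal, Matrix.diagonal_mul_diagonal]
      congr 1
      funext i
      exact sc4 (hss i)
    rw [e]
    simp only [Matrix.mul_assoc]

/-- `L S Lᵀ = 1` -/
theorem SFr.Sf_one {A B L : Mat n} {β : Vec n} (h : SFr F A B L β) (hA : Aᵀ = A) :
    L * Sf F.p A B * Lᵀ = 1 := by
  have hp : ∀ i, 0 < F.p (β i) := fun i => h.ppos i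
  have hs : ∀ i, 0 < Real.sqrt (F.p (β i)) := fun i => Real.sqrt_pos.2 (hp i)
  have hss : ∀ i, Real.sqrt (F.p (β i)) * Real.sqrt (F.p (β i)) = F.p (β i) := fun i =>
    Real.mul_self_sqrt (hp i).le
  rw [Sf_eq hA h.toFr]
  have e1 : Matrix.diagonal (fun i => Real.sqrt (F.p (β i))) * L * A * Lᵀ
      = Matrix.diagonal (fun i => 1 / Real.sqrt (F.p (β i))) := by
    have : Matrix.diagonal (fun i => Real.sqrt (F.p (β i))) * L * A * Lᵀ
        = Matrix.diagonal (fun i => Real.sqrt (F.p (β i))) * (L * A * Lᵀ) := by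
      simp only [Matrix.mul_assoc]
    rw [this, h.hA, Matrix.diagonal_mul_diagonal]
    congr 1
    funext i
    exact sc5 (hs i) (hss i)
  have e2 : L * (Matrix.diagonal (fun i => Real.sqrt (F.p (β i))) * L * A)ᵀ
      = Matrix.diagonal (fun i => 1 / Real.sqrt (F.p (β i))) := by
    rw [← Matrix.transpose_transpose (L * _), Matrix.transpose_mul, Matrix.transpose_transpose,
      e1, Matrix.diagonal_transpose]
  calc L * ((Matrix.diagonal (fun i => Real.sqrt (F.p (β i))) * L * A)ᵀ *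
        Matrix.diagonal (fun i => F.p (β i)) *
        (Matrix.diagonal (fun i => Real.sqrt (F.p (β i))) * L * A)) * Lᵀ
      = (L * (Matrix.diagonal (fun i => Real.sqrt (F.p (β i))) * L * A)ᵀ) *
        Matrix.diagonal (fun i => F.p (β i)) *
        (Matrix.diagonal (fun i => Real.sqrt (F.p (β i))) * L * A * Lᵀ) := by
        simp only [Matrix.mul_assoc]
    _ = _ := by
        rw [e1, e2, Matrix.diagonal_mul_diagonal, Matrix.diagonal_mul_diagonal,
          ← Matrix.diagonal_one]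
        congr 1
        funext i
        exact sc6 (hs i) (hss i)

/-- `L A q(BA) Lᵀ` in terms of the transformed matrices, `B = Lᵀ B' L` -/
theorem conj_aeval {A B B' L : Mat n} (hB : B = Lᵀ * B' * L) (q : ℝ[X]) :
    L * (A * aeval (B * A) q) * Lᵀ = (L * A * Lᵀ) * aeval (B' * (L * A * Lᵀ)) q := by
  have e1 : B * A = Lᵀ * (B' * (L * A)) := by
    rw [hB]; simp only [Matrix.mul_assoc]
  have e2 : aeval (B * A) q * Lᵀ = Lᵀ * aeval (B' * (L * A * Lᵀ)) q := by
    rw [e1, aeval_comm_mul]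
    simp only [Matrix.mul_assoc]
  calc L * (A * aeval (B * A) q) * Lᵀ = L * A * (aeval (B * A) q * Lᵀ) := by
        simp only [Matrix.mul_assoc]
    _ = _ := by rw [e2]; simp only [Matrix.mul_assoc]

theorem littleO_conj {l : Filter ℝ} {M : ℝ → Mat n} {g : ℝ → ℝ} (L : Mat n)
    (h : ∀ i j, (fun t => M t i j) =o[l] g) (i j : Fin n) :
    (fun t => (L * M t * Lᵀ) i j) =o[l] g := by
  have h3 : ∀ k, (fun t => ∑ p, L i p * M t p k) =o[l] g := by
    intro k
    have h2 := IsLittleO.sum (s := (Finset.univ : Finset (Fin n)))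
      (fun p _ => (h p k).const_mul_left (L i p))
    exact h2.congr_left fun t => by simp only [Finset.sum_apply]
  have h1 : (fun t => ∑ k, (∑ p, L i p * M t p k) * L j k) =o[l] g := by
    have h4 : ∀ k, (fun t => (∑ p, L i p * M t p k) * L j k) =o[l] g := fun k =>
      ((h3 k).const_mul_left (L j k)).congr_left fun t => by ring
    have h2 := IsLittleO.sum (s := (Finset.univ : Finset (Fin n))) (fun k _ => h4 k)
    exact h2.congr_left fun t => by simp only [Finset.sum_apply]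
  refine h1.congr_left fun t => ?_
  simp only [Matrix.mul_apply, Matrix.transpose_apply]

theorem ab_eq {A B L : Mat n} {β : Vec n} (h : SFr F A B L β) (i : Fin n) :
    1 / F.p (β i) * F.h (β i) = β i := by
  have := (h.ppos i).ne'
  unfold Profile.h
  field_simp

theorem exists_ip (β : Vec n) : ∃ q : ℝ[X], Interp F q (Set.range β) :=
  S526.exists_interp F (Set.finite_range β)

theorem ev_nhds {x : ℝ} (hx : x ∈ Ioo (0 : ℝ) 1) {f f1 : ℝ → ℝ}
    (h : ∀ x ∈ Ioo (0 : ℝ) 1, HasDerivAt f (f1 x) x) : ∀ᶠ y in 𝓝 x, HasDerivAt f (f1 y) y := by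
  filter_upwards [isOpen_Ioo.mem_nhds hx] with y hy
  exact h y hy

/-- second order jet of `S` in the frame, `B` fixed -/
theorem Sf_jet2 {A : ℝ → Mat n} {A0 B L X Y : Mat n} {β : Vec n} (h0 : SFr F A0 B L β)
    (hs : A0ᵀ = A0)
    (hA : ∀ i j, J2 (𝓝 0) (fun t => A t i j) (A0 i j) (X i j) (Y i j))
    (hfr : ∀ᶠ t in 𝓝 (0 : ℝ), (A t)ᵀ = A t ∧ ∃ L β, Fr (A t) B L β) (i j : Fin n) :
    J2 (𝓝 0) (fun t => (L * Sf F.p (A t) B * Lᵀ) i j) ((1 : Mat n) i j)
      (dd1 F.h F.h1 (β i) (β j) * (L * X * Lᵀ) i j)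
      (dd1 F.h F.h1 (β i) (β j) * (L * Y * Lᵀ) i j
        + ∑ k, F.h (β k) * dd2 F.h F.h1 F.h2 (β i) (β k) (β j)
          * (L * X * Lᵀ) i k * (L * X * Lᵀ) k j) := by
  obtain ⟨q, hq⟩ := exists_ip (F := F) β
  have hm : ∀ i, β i ∈ Set.range β := fun i => ⟨i, rfl⟩
  have hC : Curve (𝓝 0) A (fun _ => B) A0 B :=
    { hl := le_rfl
      symm0 := hs
      hA := fun i j => ((hA i j).toJ1 le_rfl).sub_isBigO
      hB := fun i j => by simpa using isBigO_zero (fun t : ℝ => t) (𝓝 0)
      fr := hfr }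
  have hP := fun i j => hC.Sf_poly h0.toFr (f := F.p) (q := q) (fun i =>
    rho_o (f1 := F.p1) (f2 := F.p2 (β i))
      (ev_nhds (h0.mem i) F.d1) (F.d2 _ (h0.mem i)) (hq _ (hm i)).1 (hq _ (hm i)).2.1
        (hq _ (hm i)).2.2) i j
  have hP' := littleO_conj L (M := fun t => Sf F.p (A t) B - A t * aeval (B * A t) q)
    (fun i j => (hP i j).congr_left fun t => by rw [Matrix.sub_apply]) i j
  have hJ := SQ_jet2 le_rfl q (a := fun i => 1 / F.p (β i)) (b' := fun i => F.h (β i))
    (At := fun t => L * A t * Lᵀ) (X₁ := L * X * Lᵀ) (X₂ := L * Y * Lᵀ) (l := 𝓝 0)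
    (fun i j => (J2_conj L hA i j).congr_coef (by rw [h0.hA]) rfl rfl) i j
  have e : ∀ t, (L * Sf F.p (A t) B * Lᵀ) i j
      = (L * (Sf F.p (A t) B - A t * aeval (B * A t) q) * Lᵀ) i j
        + (L * A t * Lᵀ * aeval (Matrix.diagonal (fun i => F.h (β i)) * (L * A t * Lᵀ)) q) i j := by
    intro t
    rw [← conj_aeval h0.hB q, Matrix.mul_sub, Matrix.sub_mul, Matrix.sub_apply]
    ring
  have hJ' : J2 (𝓝 0) (fun t => (L * A t * Lᵀ * aeval (Matrix.diagonal (fun i => F.h (β i))
        * (L * A t * Lᵀ)) q) i j) ((1 : Mat n) i j)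
      (dd1 F.h F.h1 (β i) (β j) * (L * X * Lᵀ) i j)
      (dd1 F.h F.h1 (β i) (β j) * (L * Y * Lᵀ) i j
        + ∑ k, F.h (β k) * dd2 F.h F.h1 F.h2 (β i) (β k) (β j)
          * (L * X * Lᵀ) i k * (L * X * Lᵀ) k j) := by
    refine hJ.congr_coef ?_ ?_ ?_
    · rw [← Matrix.diagonal_one]
      congr 1
      congr 1
      funext i
      rw [ab_eq h0 i, (hq _ (hm i)).1]
      exact one_div_mul_cancel (h0.ppos i).ne'
    · rw [ab_eq h0 i, ab_eq h0 j, hq.pd1_h (hm i) (hm j)]
    · rw [ab_eq h0 i, ab_eq h0 j, hq.pd1_h (hm i) (hm j)]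
      congr 1
      refine Finset.sum_congr rfl fun k _ => ?_
      rw [ab_eq h0 k, hq.pd2_h (hm i) (hm k) (hm j)]
  refine (IsLittleO.add hP' hJ').congr_left fun t => ?_
  simp only [e t]
  ring

/-- first order jet of `S` in the frame, along `B + t Lᵀ Q L` -/
theorem Sf_jet1 {l : Filter ℝ} (hl : l ≤ 𝓝 0) {A : ℝ → Mat n} {A0 B L X Q : Mat n} {β : Vec n}
    (h0 : SFr F A0 B L β) (hs : A0ᵀ = A0)
    (hA : ∀ i j, J1 l (fun t => A t i j) (A0 i j) (X i j))
    (hfr : ∀ᶠ t in l, (A t)ᵀ = A t ∧ ∃ L' β', Fr (A t) (B + t • (Lᵀ * Q * L)) L' β')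
    (i j : Fin n) :
    J1 l (fun t => (L * Sf F.p (A t) (B + t • (Lᵀ * Q * L)) * Lᵀ) i j) ((1 : Mat n) i j)
      (dd1 F.h F.h1 (β i) (β j) * (L * X * Lᵀ) i j
        + 1 / F.p (β i) * (1 / F.p (β j)) * dd1 F.p F.p1 (β i) (β j) * Q i j) := by
  obtain ⟨q, hq⟩ := exists_ip (F := F) β
  have hm : ∀ i, β i ∈ Set.range β := fun i => ⟨i, rfl⟩
  have hC : Curve l A (fun t => B + t • (Lᵀ * Q * L)) A0 B :=
    { hl := hl
      symm0 := hs
      hA := fun i j => (hA i j).sub_isBigO
      hB := fun i j => by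
        have h3 : (fun t : ℝ => (Lᵀ * Q * L) i j * t) =O[l] fun t => t :=
          (isBigO_refl _ _).const_mul_left _
        refine h3.congr_left fun t => ?_
        simp only [Matrix.add_apply, Matrix.smul_apply, smul_eq_mul]
        ring
      fr := hfr }
  have hP := fun i j => (hC.Sf_poly h0.toFr (f := F.p) (q := q) (fun i =>
    rho_o (f1 := F.p1) (f2 := F.p2 (β i))
      (ev_nhds (h0.mem i) F.d1) (F.d2 _ (h0.mem i)) (hq _ (hm i)).1 (hq _ (hm i)).2.1
        (hq _ (hm i)).2.2) i j).trans_isBigO (sq_isLittleO hl).isBigO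
  have hP' := littleO_conj L (M := fun t => Sf F.p (A t) (B + t • (Lᵀ * Q * L))
      - A t * aeval ((B + t • (Lᵀ * Q * L)) * A t) q)
    (fun i j => (hP i j).congr_left fun t => by rw [Matrix.sub_apply]) i j
  have hB' : ∀ t : ℝ, B + t • (Lᵀ * Q * L)
      = Lᵀ * (Matrix.diagonal (fun i => F.h (β i)) + t • Q) * L := by
    intro t
    conv_lhs => rw [h0.hB]
    rw [Matrix.mul_add, Matrix.add_mul, Matrix.mul_smul, Matrix.smul_mul]
  have hJ := SQ_jet1 hl q (a := fun i => 1 / F.p (β i)) (b' := fun i => F.h (β i))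
    (At := fun t => L * A t * Lᵀ) (Bt := fun t => Matrix.diagonal (fun i => F.h (β i)) + t • Q)
    (X₁ := L * X * Lᵀ) (Z₁ := Q)
    (fun i j => (J1_conj L hA i j).congr_coef (by rw [h0.hA]) rfl)
    (fun i j => by
      refine ((J1.const (Matrix.diagonal (fun i => F.h (β i)) i j)).add
        (J1.id.mul_const (Q i j))).congr
        (Eventually.of_forall fun t => ?_) ?_ ?_
      · rfl
      · ring
      · ring) i j
  have e : ∀ t : ℝ, (L * Sf F.p (A t) (B + t • (Lᵀ * Q * L)) * Lᵀ) i j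
      = (L * (Sf F.p (A t) (B + t • (Lᵀ * Q * L))
          - A t * aeval ((B + t • (Lᵀ * Q * L)) * A t) q) * Lᵀ) i j
        + (L * A t * Lᵀ * aeval ((Matrix.diagonal (fun i => F.h (β i)) + t • Q)
            * (L * A t * Lᵀ)) q) i j := by
    intro t
    rw [← conj_aeval (hB' t) q, Matrix.mul_sub, Matrix.sub_mul, Matrix.sub_apply]
    ring
  have hJ' : J1 l (fun t => (L * A t * Lᵀ * aeval ((Matrix.diagonal (fun i => F.h (β i)) + t • Q)
        * (L * A t * Lᵀ)) q) i j) ((1 : Mat n) i j)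
      (dd1 F.h F.h1 (β i) (β j) * (L * X * Lᵀ) i j
        + 1 / F.p (β i) * (1 / F.p (β j)) * dd1 F.p F.p1 (β i) (β j) * Q i j) := by
    refine hJ.congr_coef ?_ ?_
    · rw [← Matrix.diagonal_one]
      congr 1
      congr 1
      funext i
      rw [ab_eq h0 i, (hq _ (hm i)).1]
      exact one_div_mul_cancel (h0.ppos i).ne'
    · rw [ab_eq h0 i, ab_eq h0 j, hq.pd1_h (hm i) (hm j), hq.pd1_p (hm i) (hm j)]
  refine (IsLittleO.add hP' hJ').congr_left fun t => ?_
  simp only [e t]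
  ring

end Vale.Agent.P254.X452
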