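import Vale.Agent.P254.H452.XExist

/-!
P254, maximum principle block (X), part 6 (helper452): `ALGstd F → StX F`.
-/

namespace Vale.Agent.P254.X452

open Matrix Polynomial Filter Topology Asymptotics Set
open Vale.Agent.P254.L Vale.Agent.P254.S526 Vale.Agent.P254.Z546

variable {n : ℕ} {F : Profile} {D : TiltData n}

theorem exists_low {B0 : Mat n} (hB0 : B0.PosDef) :
    ∃ lam : ℝ, 0 < lam ∧ (B0 - lam • (1 : Mat n)).PosSemidef := by
  obtain ⟨U, lam, h1, h2, h3, h4⟩ := spec_symm hB0.isHermitian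
  have hlam : ∀ i, 0 < lam i := fun i => by rw [h4]; exact hB0.eigenvalues_pos i
  have hs : 0 ≤ ∑ i, (lam i)⁻¹ := Finset.sum_nonneg fun i _ => (inv_pos.2 (hlam i)).le
  refine ⟨(∑ i, (lam i)⁻¹ + 1)⁻¹, by positivity, ?_⟩
  have hle : ∀ i, (∑ i, (lam i)⁻¹ + 1)⁻¹ ≤ lam i := by
    intro i
    have h5 := Finset.single_le_sum (f := fun i => (lam i)⁻¹)
      (fun i _ => (inv_pos.2 (hlam i)).le) (Finset.mem_univ i)
    have h6 : (lam i)⁻¹ ≤ ∑ i, (lam i)⁻¹ + 1 := by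
      linarith
    have := inv_anti₀ (inv_pos.2 (hlam i)) h6
    rwa [inv_inv] at this
  set r := (∑ i, (lam i)⁻¹ + 1)⁻¹ with hr
  have e : B0 - r • (1 : Mat n) = U * Matrix.diagonal (fun i => lam i - r) * Uᵀ := by
    have e1 : (Matrix.diagonal fun i => lam i - r)
        = Matrix.diagonal lam - r • (1 : Mat n) := by
      rw [Matrix.smul_one_eq_diagonal, Matrix.diagonal_sub]
    rw [e1, Matrix.mul_sub, Matrix.sub_mul, ← h3, Matrix.mul_smul, Matrix.mul_one,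
      Matrix.smul_mul, h2]
  rw [e]
  have h4 : (Matrix.diagonal (fun i => lam i - r) : Mat n).PosSemidef := by
    rw [Matrix.posSemidef_diagonal_iff]
    intro i
    have := hle i
    linarith
  have h5 := h4.mul_mul_conjTranspose_same U
  rwa [Matrix.conjTranspose_eq_transpose_of_trivial] at h5

/-- the top of the domain -/
theorem top_lt {κ : ℝ} (hκ : 0 < κ) (hF : ∀ x ∈ Ioo (0 : ℝ) 1, κ * (1 - x) ^ 2 ≤ F.p x ^ 3)
    {B0 : Mat n} (hB0 : B0.PosDef) {R : ℝ} (hR0 : 0 < R)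
    (hR : (R • (1 : Mat n) - (B0 + D.M • (1 : Mat n))).PosSemidef) {S ρ : ℝ} (hS1 : 1 ≤ S)
    (hS : D.CT * R ^ 2 * (n : ℝ) ^ 2 < κ * D.m ^ 5 * S)
    {p : ℝ × Mat n × Vec n × Mat n} (hp : p ∈ DX D B0 S ρ) (hpS : p.1 = S) :
    fP D p.2.1 p.2.2.1 p.2.2.2 < gP F D p.2.1 p.2.2.1 p.2.2.2 := by
  have hm := D.hm
  have hM := D.hM
  have hCT := D.hCT
  have hB := DX_posDef hB0 hp
  have hP := hp.2.2.2.2.1
  have hP1 := hp.2.2.2.2.2
  have hP0 : p.2.2.2 ≠ 0 := by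
    intro h; rw [h, Matrix.trace_zero] at hP1; exact zero_ne_one hP1
  have hn : n ≠ 0 := by
    rintro rfl
    simp [Matrix.trace] at hP1
  have hn0 : (0 : ℝ) < (n : ℝ) ^ 2 := by
    have : (0 : ℝ) < n := by exact_mod_cast Nat.pos_of_ne_zero hn
    positivity
  have hS0 : 0 < S := by linarith
  have h1 := DX_up hR hp
  rw [hpS] at h1
  have h2 := g_lower hκ hF hB p.2.2.1 (b := S * R) (by positivity) h1 hP
  have h3 := DX_B hB0 hp
  rw [hpS] at h3
  have h4 : (p.2.1 - ((S - 1) * D.m) • (1 : Mat n)).PosSemidef := by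
    have := h3.add hB0.posSemidef
    refine cast (congrArg Matrix.PosSemidef ?_) this
    abel
  have h5 := D.bT p.2.1 hB.posSemidef ((S - 1) * D.m)
    (mul_nonneg (by linarith) hm.le) h4 p.2.2.1 p.2.2.2 hP
  have hX := trace_AP_pos (D := D) hB p.2.2.1 hP hP0
  set X := (D.A p.2.1 p.2.2.1 * p.2.2.2).trace with hXd
  have hX3 : 0 < X ^ 3 := by positivity
  have h6 : D.CT / ((S - 1) * D.m + D.M) ^ 3 ≤ D.CT / (S * D.m) ^ 3 := by
    refine div_le_div_of_nonneg_left hCT (by positivity) ?_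
    refine pow_le_pow_left₀ (by positivity) ?_ 3
    linarith
  have h7 : (n : ℝ) ^ 2 * (D.CT / (S * D.m) ^ 3) < κ * (D.m / (S * R)) ^ 2 := by
    rw [div_pow, mul_div_assoc', mul_div_assoc', div_lt_div_iff₀ (by positivity) (by positivity)]
    have h8 : 0 < S ^ 2 := by positivity
    calc (n : ℝ) ^ 2 * D.CT * (S * R) ^ 2 = (D.CT * R ^ 2 * (n : ℝ) ^ 2) * S ^ 2 := by ring
      _ < (κ * D.m ^ 5 * S) * S ^ 2 := mul_lt_mul_of_pos_right hS h8
      _ = κ * D.m ^ 2 * (S * D.m) ^ 3 := by ring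
  have h9 : (n : ℝ) ^ 2 * fP D p.2.1 p.2.2.1 p.2.2.2
      < (n : ℝ) ^ 2 * gP F D p.2.1 p.2.2.1 p.2.2.2 := by
    calc (n : ℝ) ^ 2 * fP D p.2.1 p.2.2.1 p.2.2.2
        ≤ (n : ℝ) ^ 2 * (D.CT / ((S - 1) * D.m + D.M) ^ 3 * X ^ 3) :=
          mul_le_mul_of_nonneg_left h5 hn0.le
      _ ≤ (n : ℝ) ^ 2 * (D.CT / (S * D.m) ^ 3 * X ^ 3) := by
          refine mul_le_mul_of_nonneg_left ?_ hn0.le
          exact mul_le_mul_of_nonneg_right h6 hX3.le
      _ = ((n : ℝ) ^ 2 * (D.CT / (S * D.m) ^ 3)) * X ^ 3 := by ring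
      _ < κ * (D.m / (S * R)) ^ 2 * X ^ 3 := mul_lt_mul_of_pos_right h7 hX3
      _ ≤ _ := h2
  exact lt_of_mul_lt_mul_left h9 hn0.le

/-- the side of the domain -/
theorem side_lt {κ : ℝ} (hκ : 0 < κ) (hF : ∀ x ∈ Ioo (0 : ℝ) 1, κ * (1 - x) ^ 2 ≤ F.p x ^ 3)
    (hn : n ≠ 0) {B0 : Mat n} (hB0 : B0.PosDef) {R : ℝ} (hR0 : 0 < R)
    (hR : (R • (1 : Mat n) - (B0 + D.M • (1 : Mat n))).PosSemidef) {S : ℝ} (hS1 : 1 ≤ S) :
    ∃ ρ1 : ℝ, ∀ ρ : ℝ, ∀ p ∈ DX D B0 S ρ, ρ1 ≤ ‖p.2.2.1‖ →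
      fP D p.2.1 p.2.2.1 p.2.2.2 < gP F D p.2.1 p.2.2.1 p.2.2.2 := by
  have hm := D.hm
  have hM := D.hM
  have hn0 : (0 : ℝ) < (n : ℝ) ^ 2 := by
    have : (0 : ℝ) < n := by exact_mod_cast Nat.pos_of_ne_zero hn
    positivity
  have hS0 : 0 < S := by linarith
  have hq : 0 < κ * (D.m / (S * R)) ^ 2 := by positivity
  obtain ⟨ρ1, hρ⟩ := D.vT (S * R) (κ * (D.m / (S * R)) ^ 2 / (2 * (n : ℝ) ^ 2)) (by positivity)
  refine ⟨ρ1, fun ρ p hp hc => ?_⟩
  have hB := DX_posDef hB0 hp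
  have hP := hp.2.2.2.2.1
  have hP1 := hp.2.2.2.2.2
  have hP0 : p.2.2.2 ≠ 0 := by
    intro h; rw [h, Matrix.trace_zero] at hP1; exact zero_ne_one hP1
  have h1 := DX_up' hR0.le hR hp
  have h2 := g_lower hκ hF hB p.2.2.1 (b := S * R) (by positivity) h1 hP
  have h3 : ((S * R) • (1 : Mat n) - p.2.1).PosSemidef := by
    have := h1.add (Matrix.PosSemidef.one.smul (show (0 : ℝ) ≤ D.M by linarith))
    refine cast (congrArg Matrix.PosSemidef ?_) this
    abel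
  have h4 := hρ p.2.1 hB.posSemidef h3 p.2.2.1 hc p.2.2.2 hP
  have hX := trace_AP_pos (D := D) hB p.2.2.1 hP hP0
  set X := (D.A p.2.1 p.2.2.1 * p.2.2.2).trace with hXd
  set q := κ * (D.m / (S * R)) ^ 2 with hqd
  have hX3 : 0 < X ^ 3 := by positivity
  have h9 : (n : ℝ) ^ 2 * fP D p.2.1 p.2.2.1 p.2.2.2
      < (n : ℝ) ^ 2 * gP F D p.2.1 p.2.2.1 p.2.2.2 := by
    calc (n : ℝ) ^ 2 * fP D p.2.1 p.2.2.1 p.2.2.2
        ≤ (n : ℝ) ^ 2 * (q / (2 * (n : ℝ) ^ 2) * X ^ 3) :=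
          mul_le_mul_of_nonneg_left h4 hn0.le
      _ = q * X ^ 3 / 2 := by field_simp
      _ < q * X ^ 3 := by have := mul_pos hq hX3; linarith
      _ ≤ _ := h2
  exact lt_of_mul_lt_mul_left h9 hn0.le

theorem nonneg_g {κ : ℝ} (hκ : 0 < κ) (hF : ∀ x ∈ Ioo (0 : ℝ) 1, κ * (1 - x) ^ 2 ≤ F.p x ^ 3)
    (hn : n ≠ 0) {B0 : Mat n} (hB0 : B0.PosDef) {R : ℝ} (hR0 : 0 < R)
    (hR : (R • (1 : Mat n) - (B0 + D.M • (1 : Mat n))).PosSemidef) {S ρ : ℝ} (hS1 : 1 ≤ S) :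
    ∀ x ∈ DX D B0 S ρ, 0 ≤ gP F D x.2.1 x.2.2.1 x.2.2.2 := by
  intro x hx
  have hm := D.hm
  have hb0 : 0 < S * R := by positivity
  have h2 := g_lower hκ hF (DX_posDef hB0 hx) x.2.2.1 hb0 (DX_up' hR0.le hR hx)
    hx.2.2.2.2.1
  have hX := trace_AP_pos (D := D) (DX_posDef hB0 hx) x.2.2.1 hx.2.2.2.2.1 (by
    intro h
    have := hx.2.2.2.2.2
    rw [h, Matrix.trace_zero] at this
    exact zero_ne_one this)
  have hn0 : (0 : ℝ) < (n : ℝ) ^ 2 := by
    have : (0 : ℝ) < n := by exact_mod_cast Nat.pos_of_ne_zero hn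
    positivity
  have h3 : 0 ≤ (n : ℝ) ^ 2 * gP F D x.2.1 x.2.2.1 x.2.2.2 := le_trans (by positivity) h2
  exact nonneg_of_mul_nonneg_right h3 hn0

/-- bound of the logarithmic derivative of the profile on a compact interval -/
theorem exists_C (F : Profile) {x0 x1 : ℝ} (h0 : 0 < x0) (h1 : x1 < 1) :
    ∃ C : ℝ, ∀ x ∈ Icc x0 x1, ‖(- F.p x + (1 - x) * F.p1 x) / F.p x‖ ≤ C := by
  refine isCompact_Icc.exists_bound_of_continuousOn ?_
  have hsub : Icc x0 x1 ⊆ Ioo (0 : ℝ) 1 := fun x hx => ⟨h0.trans_le hx.1, hx.2.trans_lt h1⟩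
  have hp : ContinuousOn F.p (Icc x0 x1) := fun x hx =>
    (F.d1 x (hsub hx)).continuousAt.continuousWithinAt
  have hp1 : ContinuousOn F.p1 (Icc x0 x1) := fun x hx =>
    (F.d2 x (hsub hx)).continuousAt.continuousWithinAt
  refine (hp.neg.add ((continuousOn_const.sub continuousOn_id).mul hp1)).div hp ?_
  intro x hx
  exact (F.pos x (hsub hx)).ne'

/-- the final contradiction -/
theorem no_contact (hALG : ALGstd F) {B0 : Mat n} (hB0 : B0.PosDef)
    {R : ℝ} (hR0 : 0 < R) (hR : (R • (1 : Mat n) - (B0 + D.M • (1 : Mat n))).PosSemidef)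
    {S ρ : ℝ} (hS1 : 1 ≤ S) {lam : ℝ} (hlam : 0 < lam)
    (hlamB : (B0 - lam • (1 : Mat n)).PosSemidef) {C : ℝ}
    (hC : ∀ x ∈ Icc (lam / (S * R)) (1 - D.m / (S * R)),
      ‖(- F.p x + (1 - x) * F.p1 x) / F.p x‖ ≤ C) {N : ℕ} (hN : 6 * |C| < N)
    {e τ : ℝ} {B : Mat n} {c : Vec n} {P : Mat n} (he0 : 0 < e) (he1 : e ≤ 1)
    (hD : (τ, B, c, P) ∈ DX D B0 S ρ)
    (hle1 : ∀ᶠ c' in 𝓝 c, ∀ P' : Mat n, P'.PosSemidef → P'.trace = 1 →
        fP D B c' P' ≤ (1 + e) * gP F D B c' P')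
    (heq1 : fP D B c P = (1 + e) * gP F D B c P)
    {ϑ : ℝ → ℝ} (hϑ : J1 (𝓝[≥] 0) ϑ (1 + e) (-(N * e)))
    (hfl : ∀ᶠ t in 𝓝[≥] (0 : ℝ),
          fP D (B + t • (D.A B c)⁻¹) (c + t • ((D.A B c)⁻¹ *ᵥ D.mu B c)) P
            ≤ ϑ t * gP F D (B + t • (D.A B c)⁻¹) (c + t • ((D.A B c)⁻¹ *ᵥ D.mu B c)) P) :
    False := by
  have hm := D.hm
  have hB : B.PosDef := DX_posDef hB0 hD
  have hτ1 : 1 ≤ τ := hD.1.1
  have hPp : P.PosSemidef := hD.2.2.2.2.1
  have hPt : P.trace = 1 := hD.2.2.2.2.2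
  have hPne : P ≠ 0 := by
    intro h; rw [h, Matrix.trace_zero] at hPt; exact zero_ne_one hPt
  have hb0 : 0 < S * R := by positivity
  set s := Real.sqrt (1 + e) with hs
  have hs2 : s ^ 2 = 1 + e := Real.sq_sqrt (by linarith)
  have hs0 : 0 < s := Real.sqrt_pos.2 (by linarith)
  rw [← hs2] at hle1 heq1 hϑ
  have hle' : ∀ᶠ c' in 𝓝 c, ∀ P' : Mat n, P'.PosSemidef →
        fP D B c' P' ≤ s ^ 2 * gP F D B c' P' := by
    filter_upwards [hle1] with c' hc'
    exact le_of_trace_one hc'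
  obtain ⟨L, β, h, L₁, h₁⟩ := exists_SFr (F := F) (D := D) hB c
  obtain ⟨P', hP', rfl⟩ := frame_repr h.unit hPp
  have hP'0 : P' ≠ 0 := by
    rintro rfl
    exact hPne (by simp)
  have hle : ∀ a : Fin n, ∀ᶠ t in 𝓝 (0 : ℝ), ∀ P' : Mat n, P'.PosSemidef →
      fP D B (c + t • dir L a) P' ≤ s ^ 2 * gP F D B (c + t • dir L a) P' := by
    intro a
    have h1 : Tendsto (fun t : ℝ => c + t • dir L a) (𝓝 0) (𝓝 (c + (0 : ℝ) • dir L a)) := by
      apply Continuous.tendsto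
      fun_prop
    rw [zero_smul, add_zero] at h1
    exact h1.eventually hle'
  have hfin := contact_ineq hALG hB h hs0 hP' hP'0 hle hle'.self_of_nhds heq1 hϑ hfl
  -- the bound of `Sflow`
  have hBlam : (B - lam • (1 : Mat n)).PosSemidef := by
    have h1 := (DX_B hB0 hD).add (hlamB.add
      (Matrix.PosSemidef.one.smul (show (0 : ℝ) ≤ (τ - 1) * D.m from
        mul_nonneg (by linarith) hm.le)))
    refine cast (congrArg Matrix.PosSemidef ?_) h1
    simp only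
    abel
  have hBb := DX_up' hR0.le hR hD
  have hβ : ∀ i, β i ∈ Icc (lam / (S * R)) (1 - D.m / (S * R)) := fun i =>
    ⟨beta_low hB c h₁ hb0 hlam.le hBb hBlam i, by
      have := beta_up hB c h₁ hb0 hBb i
      linarith⟩
  have hSf := Sflow_trace_ge (F := F) h.mem (C := |C|) (fun i => by
    have h1 := hC _ (hβ i)
    rw [Real.norm_eq_abs] at h1
    have h2 := (abs_le.1 h1).1
    have h3 := le_abs_self C
    linarith) hP'
  have htr := cube_trace_pos hP' hP'0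
  rw [hs2] at hfin
  generalize (P' * P' * P').trace = T3 at hfin hSf htr
  generalize (Sflow F β (Matrix.diagonal fun i => F.p (β i)) * (P' * P' * P')).trace = SF
    at hfin hSf
  have hC0 : 0 ≤ |C| := abs_nonneg C
  generalize |C| = C' at hN hSf hC0
  -- `(θ² - θ) = (1 + e) e`
  have h12 : -(3 * C' * T3) ≤ 6 * T3 + 3 * SF := by linarith
  have h13 : 0 ≤ (1 + e) * e := by positivity
  have h14 := mul_le_mul_of_nonneg_left h12 h13
  have h15 : (1 + e) * e * (3 * C' * T3) ≤ 2 * e * (3 * C' * T3) := by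
    refine mul_le_mul_of_nonneg_right ?_ (by positivity)
    nlinarith
  have h16 : 6 * C' * e * T3 < N * e * T3 :=
    mul_lt_mul_of_pos_right (mul_lt_mul_of_pos_right hN he0) htr
  have h17 : ((1 + e) * (1 + e) - (1 + e)) * (6 * T3 + 3 * SF)
      = (1 + e) * e * (6 * T3 + 3 * SF) := by ring
  rw [h17] at hfin
  linarith

theorem main_le (hALG : ALGstd F) {κ : ℝ} (hκ : 0 < κ)
    (hF : ∀ x ∈ Ioo (0 : ℝ) 1, κ * (1 - x) ^ 2 ≤ F.p x ^ 3) {B0 : Mat n} (hB0 : B0.PosDef)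
    (c0 : Vec n) : ∀ P : Mat n, P.PosSemidef → fP D B0 c0 P ≤ 1 * gP F D B0 c0 P := by
  refine le_of_trace_one fun P0 hP0 hP1 => ?_
  by_contra hcon
  push Not at hcon
  rw [one_mul] at hcon
  have hm := D.hm
  have hM := D.hM
  have hCT := D.hCT
  have hn : n ≠ 0 := by
    rintro rfl
    simp [Matrix.trace] at hP1
  obtain ⟨R1, hR1, hR1'⟩ := exists_smul_ge (B0 + D.M • (1 : Mat n)) (by
    rw [Matrix.transpose_add, (psd_iff.1 hB0.posSemidef).1, Matrix.transpose_smul,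
      Matrix.transpose_one])
  obtain ⟨R, hR0, hR⟩ : ∃ R : ℝ, 0 < R ∧
      (R • (1 : Mat n) - (B0 + D.M • (1 : Mat n))).PosSemidef := by
    refine ⟨R1 + 1, by linarith, ?_⟩
    have := (psd_mono_smul (n := n) (show R1 ≤ R1 + 1 by linarith)).add hR1'
    refine cast (congrArg Matrix.PosSemidef ?_) this
    abel
  obtain ⟨S, hS1, hS⟩ : ∃ S : ℝ, 1 ≤ S ∧ D.CT * R ^ 2 * (n : ℝ) ^ 2 < κ * D.m ^ 5 * S := by
    refine ⟨1 + D.CT * R ^ 2 * (n : ℝ) ^ 2 / (κ * D.m ^ 5), ?_, ?_⟩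
    · have : 0 ≤ D.CT * R ^ 2 * (n : ℝ) ^ 2 / (κ * D.m ^ 5) := by positivity
      linarith
    · have h5 : 0 < κ * D.m ^ 5 := by positivity
      rw [mul_add, mul_div_cancel₀ _ h5.ne']
      linarith
  obtain ⟨ρ1, hρ1⟩ := side_lt (F := F) (D := D) hκ hF hn hB0 hR0 hR hS1
  obtain ⟨lam, hlam, hlamB⟩ := exists_low hB0
  have hb0 : 0 < S * R := by positivity
  obtain ⟨C, hC⟩ := exists_C F (x0 := lam / (S * R)) (x1 := 1 - D.m / (S * R)) (by positivity)
    (by have : 0 < D.m / (S * R) := by positivity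
        linarith)
  obtain ⟨N, hN⟩ := exists_nat_gt (6 * |C|)
  obtain ⟨e, τ, B, c, P, he0, he1, hD, hle, heq, ϑ, hϑ, hfl⟩ :=
    exists_contact (D := D) (f := fP D) (g := gP F D) hB0 (S := S) (ρ := max ρ1 (‖c0‖ + 1)) hS1
      (fP_cont hB0) (gP_cont hB0) (nonneg_g hκ hF hn hB0 hR0 hR hS1)
      (fun p hp h => top_lt hκ hF hB0 hR0 hR hS1 hS hp h)
      (fun p hp h => hρ1 _ p hp (by rw [h]; exact le_max_left _ _)) (c0 := c0)
      ((by linarith : ‖c0‖ ≤ ‖c0‖ + 1).trans (le_max_right _ _)) hP0 hP1 hcon N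
  exact no_contact hALG hB0 hR0 hR hS1 hlam hlamB hC hN he0 he1 hD hle heq hϑ hfl

/-- frames where `A` is diagonal -/
theorem Sf_frame {A B L : Mat n} {a b' : Vec n} (hA : A.PosDef) (hL : IsUnit L)
    (hLA : L * A * Lᵀ = Matrix.diagonal a) (hLB : B = Lᵀ * Matrix.diagonal b' * L) (f : ℝ → ℝ) :
    L * Sf f A B * Lᵀ = Matrix.diagonal fun i => a i * f (a i * b' i) := by
  have hsy : Aᵀ = A := by
    have := hA.isHermitian.eq
    rwa [Matrix.conjTranspose_eq_transpose_of_trivial] at this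
  have ha : ∀ i, 0 < a i := by
    have h1 : (L * A * Lᵀ).PosDef := by
      have h2 := (posDef_conj_iff (L := Lᵀ) (isUnit_transpose hL) (X := A)).2 hA
      rwa [Matrix.transpose_transpose] at h2
    rw [hLA, Matrix.posDef_diagonal_iff] at h1
    exact h1
  have hs : ∀ i, 0 < Real.sqrt (a i) := fun i => Real.sqrt_pos.2 (ha i)
  have hss : ∀ i, Real.sqrt (a i) * Real.sqrt (a i) = a i := fun i =>
    Real.mul_self_sqrt (ha i).le
  have hfr : Fr A B (Matrix.diagonal (fun i => 1 / Real.sqrt (a i)) * L)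
      (fun i => a i * b' i) := by
    constructor
    · rw [Matrix.transpose_mul, Matrix.diagonal_transpose]
      calc Matrix.diagonal (fun i => 1 / Real.sqrt (a i)) * L * A *
            (Lᵀ * Matrix.diagonal fun i => 1 / Real.sqrt (a i))
          = Matrix.diagonal (fun i => 1 / Real.sqrt (a i)) * (L * A * Lᵀ) *
            Matrix.diagonal (fun i => 1 / Real.sqrt (a i)) := by
            simp only [Matrix.mul_assoc]
        _ = _ := by
            rw [hLA, Matrix.diagonal_mul_diagonal, Matrix.diagonal_mul_diagonal,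
              ← Matrix.diagonal_one]
            congr 1
            funext i
            exact sc6 (hs i) (hss i)
    · rw [Matrix.transpose_mul, Matrix.diagonal_transpose]
      conv_lhs => rw [hLB]
      have e : (Matrix.diagonal b' : Mat n) = Matrix.diagonal (fun i => 1 / Real.sqrt (a i)) *
          Matrix.diagonal (fun i => a i * b' i) *
          Matrix.diagonal (fun i => 1 / Real.sqrt (a i)) := by
        rw [Matrix.diagonal_mul_diagonal, Matrix.diagonal_mul_diagonal]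
        congr 1
        funext i
        have h1 := sc2 (β := b' i) (hs i) (hss i)
        rw [mul_comm (a i) (b' i)]
        exact h1
      rw [e]
      simp only [Matrix.mul_assoc]
  rw [Sf_eq hsy hfr]
  have e1 : Matrix.diagonal (fun i => 1 / Real.sqrt (a i)) * L * A * Lᵀ
      = Matrix.diagonal (fun i => Real.sqrt (a i)) := by
    have : Matrix.diagonal (fun i => 1 / Real.sqrt (a i)) * L * A * Lᵀ
        = Matrix.diagonal (fun i => 1 / Real.sqrt (a i)) * (L * A * Lᵀ) := by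
      simp only [Matrix.mul_assoc]
    rw [this, hLA, Matrix.diagonal_mul_diagonal]
    congr 1
    funext i
    have h1 := hss i
    have h2 := (hs i).ne'
    generalize Real.sqrt (a i) = s at h1 h2
    rw [← h1]
    field_simp
  have e2 : L * (Matrix.diagonal (fun i => 1 / Real.sqrt (a i)) * L * A)ᵀ
      = Matrix.diagonal (fun i => Real.sqrt (a i)) := by
    rw [← Matrix.transpose_transpose (L * _), Matrix.transpose_mul, Matrix.transpose_transpose,
      e1, Matrix.diagonal_transpose]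
  calc L * ((Matrix.diagonal (fun i => 1 / Real.sqrt (a i)) * L * A)ᵀ *
        Matrix.diagonal (fun i => f (a i * b' i)) *
        (Matrix.diagonal (fun i => 1 / Real.sqrt (a i)) * L * A)) * Lᵀ
      = (L * (Matrix.diagonal (fun i => 1 / Real.sqrt (a i)) * L * A)ᵀ) *
        Matrix.diagonal (fun i => f (a i * b' i)) *
        (Matrix.diagonal (fun i => 1 / Real.sqrt (a i)) * L * A * Lᵀ) := by
        simp only [Matrix.mul_assoc]
    _ = _ := by
        rw [e1, e2, Matrix.diagonal_mul_diagonal, Matrix.diagonal_mul_diagonal]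
        congr 1
        funext i
        have h1 := hss i
        generalize Real.sqrt (a i) = s at h1
        rw [← h1]
        ring

/-- **Block (X).** The algebraic drift inequality with the standard control implies the sharp
inequality `(P)` for all tilts. -/
theorem StX_of_ALGstd (F : Profile) {κ : ℝ} (hκ : 0 < κ)
    (hF : ∀ x ∈ Ioo (0 : ℝ) 1, κ * (1 - x) ^ 2 ≤ F.p x ^ 3) (hALG : ALGstd F) : StX F := by
  intro n D B hB c L a b' hL hLA hLB P hP
  have h1 := main_le (D := D) hALG hκ hF hB c (Lᵀ * P * L) ((psd_conj_iff hL).2 hP)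
  rw [one_mul, fP_frame, gP_frame, Sf_frame (D.posA B hB.posSemidef c) hL hLA hLB] at h1
  exact h1

end Vale.Agent.P254.X452
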